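import Mathlib

/-! P242, helper607 (package VOL-DENS): the upper density of the Hausdorff measure `μH[n]` is at
most `1` almost everywhere (with `(2 r) ^ n` as the normalisation). -/

open MeasureTheory Measure Metric Set Filter Topology
open scoped ENNReal NNReal

namespace Vale.Agent.P242.H607

variable {X : Type*} [MetricSpace X]

theorem ediam_cb (x : X) (r : ℝ) : ediam (closedBall x r) ≤ ENNReal.ofReal (2 * r) := by
  refine ediam_le_of_forall_dist_le fun y hy z hz => ?_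
  have h1 := mem_closedBall.1 hy
  have h2 := mem_closedBall.1 hz
  have h3 := dist_triangle_right y z x
  linarith

variable [SecondCountableTopology X] [MeasurableSpace X] [BorelSpace X]

/-- A set of points with upper density of the Hausdorff measure `≥ 1 + e` is null. -/
theorem null_of_upper {n : ℝ} (hn : 0 < n) [IsLocallyFiniteMeasure (μH[n] : Measure X)]
    (C : ℝ≥0) {r₁ : ℝ} (hr₁ : 0 < r₁) (s : Set X) (hs : μH[n] s ≠ ∞)
    (hC : ∀ x ∈ s, ∀ r, 0 < r → r ≤ r₁ →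
      μH[n] (closedBall x (3 * r)) ≤ C * μH[n] (closedBall x r))
    {e : ℝ≥0} (he : 0 < e)
    (h : ∀ x ∈ s, ∀ ε > 0, ∃ r, 0 < r ∧ r ≤ ε ∧
      (1 + e) * ENNReal.ofReal (2 * r) ^ n ≤ μH[n] (closedBall x r)) :
    μH[n] s = 0 := by
  by_contra h0
  have he1 : (1 : ℝ≥0∞) < 1 + e := by
    have : (0 : ℝ≥0∞) < e := by exact_mod_cast he
    exact ENNReal.lt_add_right ENNReal.one_ne_top this.ne'
  have het : (1 : ℝ≥0∞) + e ≠ ∞ := by simp
  have he0 : (1 : ℝ≥0∞) + e ≠ 0 := (zero_lt_one.trans he1).ne'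
  have hlt : μH[n] s < (1 + e) * μH[n] s := by
    calc μH[n] s = 1 * μH[n] s := (one_mul _).symm
      _ < (1 + e) * μH[n] s := by
        exact (ENNReal.mul_lt_mul_iff_left h0 hs).2 he1
  obtain ⟨U, hsU, hU, hUlt⟩ := s.exists_isOpen_lt_of_lt _ hlt
  -- Vitali families
  have hvit : ∀ k : ℕ, ∃ u : Set (X × ℝ), u ⊆ {a : X × ℝ | a.1 ∈ s ∧ 0 < a.2 ∧
      a.2 ≤ 1 / ((k : ℝ) + 1) ∧ a.2 ≤ r₁ ∧ closedBall a.1 a.2 ⊆ U ∧
      (1 + e) * ENNReal.ofReal (2 * a.2) ^ n ≤ μH[n] (closedBall a.1 a.2)} ∧ u.Countable ∧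
      u.PairwiseDisjoint (fun a : X × ℝ => closedBall a.1 a.2) ∧
      μH[n] (s \ ⋃ a ∈ u, closedBall (a : X × ℝ).1 a.2) = 0 := by
    intro k
    refine Vitali.exists_disjoint_covering_ae (μH[n] : Measure X) s _ C (fun a : X × ℝ => a.2)
      (fun a : X × ℝ => a.1) (fun a : X × ℝ => closedBall a.1 a.2) (fun a _ => Subset.rfl)
      ?_ ?_ ?_ ?_
    · rintro a ⟨h1, h2, h3, h4, h5, h6⟩
      exact hC _ h1 _ h2 h4
    · rintro a ⟨h1, h2, h3, h4, h5, h6⟩
      exact ⟨a.1, ball_subset_interior_closedBall (mem_ball_self h2)⟩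
    · intro a _
      exact isClosed_closedBall
    · intro x hx ε hε
      obtain ⟨ρ, hρ, hρU⟩ := nhds_basis_closedBall.mem_iff.1 (hU.mem_nhds (hsU hx))
      have hk : (0 : ℝ) < 1 / ((k : ℝ) + 1) := by positivity
      obtain ⟨r, hr0, hr, h6⟩ := h x hx (min (min ε ρ) (min (1 / ((k : ℝ) + 1)) r₁))
        (by positivity)
      refine ⟨(x, r), ⟨hx, hr0, ?_, ?_, ?_, h6⟩, ?_, rfl⟩
      · exact hr.trans ((min_le_right _ _).trans (min_le_left _ _))
      · exact hr.trans ((min_le_right _ _).trans (min_le_right _ _))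
      · refine (closedBall_subset_closedBall ?_).trans hρU
        exact hr.trans ((min_le_left _ _).trans (min_le_right _ _))
      · exact hr.trans ((min_le_left _ _).trans (min_le_left _ _))
  choose u hut huc hud hu0 using hvit
  set N : Set X := ⋃ k, (s \ ⋃ a ∈ u k, closedBall a.1 a.2) with hN
  have hN0 : μH[n] N = 0 := measure_iUnion_null hu0
  have hs' : μH[n] (s \ N) = μH[n] s := measure_sdiff_null hN0
  have hcount : ∀ k, Countable (u k) := fun k => (huc k).to_subtype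
  have hle : μH[n] (s \ N) ≤ liminf (fun k => ∑' a : u k,
      ediam (closedBall a.1.1 a.1.2) ^ n) atTop := by
    refine hausdorffMeasure_le_liminf_tsum n (s \ N)
      (fun k : ℕ => ENNReal.ofReal (2 * (1 / ((k : ℝ) + 1)))) ?_ (fun k (a : u k) =>
        closedBall a.1.1 a.1.2) ?_ ?_
    · have h1 : Tendsto (fun k : ℕ => 2 * (1 / ((k : ℝ) + 1))) atTop (𝓝 (2 * 0)) :=
        tendsto_one_div_add_atTop_nhds_zero_nat.const_mul 2
      have h2 := (ENNReal.tendsto_ofReal h1)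
      simpa using h2
    · refine Eventually.of_forall fun k a => ?_
      have h1 := hut k a.2
      refine (ediam_cb _ _).trans (ENNReal.ofReal_le_ofReal ?_)
      have := h1.2.2.1
      linarith
    · refine Eventually.of_forall fun k x hx => ?_
      by_contra hx'
      apply hx.2
      rw [hN, mem_iUnion]
      refine ⟨k, hx.1, fun h2 => hx' ?_⟩
      rw [mem_iUnion₂] at h2
      obtain ⟨a, ha, hxa⟩ := h2
      exact mem_iUnion.2 ⟨⟨a, ha⟩, hxa⟩
  have hbd : ∀ k, ∑' a : u k, ediam (closedBall a.1.1 a.1.2) ^ n ≤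
      (1 + (e : ℝ≥0∞))⁻¹ * μH[n] U := by
    intro k
    have h1 : ∀ a : u k, ediam (closedBall a.1.1 a.1.2) ^ n ≤
        (1 + (e : ℝ≥0∞))⁻¹ * μH[n] (closedBall a.1.1 a.1.2) := by
      intro a
      have h2 := (hut k a.2).2.2.2.2.2
      calc ediam (closedBall a.1.1 a.1.2) ^ n ≤ ENNReal.ofReal (2 * a.1.2) ^ n :=
            ENNReal.rpow_le_rpow (ediam_cb _ _) hn.le
        _ = (1 + (e : ℝ≥0∞))⁻¹ * ((1 + e) * ENNReal.ofReal (2 * a.1.2) ^ n) := by
            rw [← mul_assoc, ENNReal.inv_mul_cancel he0 het, one_mul]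
        _ ≤ _ := by gcongr
    calc ∑' a : u k, ediam (closedBall a.1.1 a.1.2) ^ n
        ≤ ∑' a : u k, (1 + (e : ℝ≥0∞))⁻¹ * μH[n] (closedBall a.1.1 a.1.2) :=
          ENNReal.tsum_le_tsum h1
      _ = (1 + (e : ℝ≥0∞))⁻¹ * ∑' a : u k, μH[n] (closedBall a.1.1 a.1.2) :=
          ENNReal.tsum_mul_left
      _ = (1 + (e : ℝ≥0∞))⁻¹ * μH[n] (⋃ a ∈ u k, closedBall a.1 a.2) := by
          rw [measure_biUnion (huc k) (hud k) fun a _ => isClosed_closedBall.measurableSet]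
      _ ≤ (1 + (e : ℝ≥0∞))⁻¹ * μH[n] U := by
          gcongr
          exact iUnion₂_subset fun a ha => (hut k ha).2.2.2.2.1
  have hfin : μH[n] s ≤ (1 + (e : ℝ≥0∞))⁻¹ * μH[n] U := by
    rw [← hs']
    refine hle.trans ?_
    refine (liminf_le_liminf (Eventually.of_forall hbd)).trans ?_
    simp
  have h3 : (1 + (e : ℝ≥0∞)) * μH[n] s ≤ μH[n] U := by
    calc (1 + (e : ℝ≥0∞)) * μH[n] s ≤ (1 + (e : ℝ≥0∞)) * ((1 + (e : ℝ≥0∞))⁻¹ * μH[n] U) := by
          gcongr
      _ = μH[n] U := by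
          rw [← mul_assoc, ENNReal.mul_inv_cancel he0 het, one_mul]
  exact absurd (lt_of_lt_of_le hUlt h3) (lt_irrefl _)

/-- The upper density of `μH[n]` is at most `1` almost everywhere: for every `e > 0`, almost every
`x` has `μH[n] (closedBall x r) < (1 + e) (2 r)^n` for all small `r`. The space is locally doubling
for `μH[n]`, in the following sense: it is covered by countably many sets `S i` of finite measure
with uniform tripling constants at small scales. -/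
theorem ae_upper_density {n : ℝ} (hn : 0 < n) [IsLocallyFiniteMeasure (μH[n] : Measure X)]
    {ι : Type*} [Countable ι] (S : ι → Set X) (hS : ∀ x, ∃ i, x ∈ S i)
    (hfin : ∀ i, μH[n] (S i) ≠ ∞)
    (hC : ∀ i, ∃ C : ℝ≥0, ∃ r₁ > 0, ∀ x ∈ S i, ∀ r, 0 < r → r ≤ r₁ →
      μH[n] (closedBall x (3 * r)) ≤ C * μH[n] (closedBall x r)) :
    ∀ᵐ x ∂(μH[n] : Measure X), ∀ e : ℝ, 0 < e → ∃ ε > 0, ∀ r, 0 < r → r ≤ ε →
      μH[n] (closedBall x r) ≤ ENNReal.ofReal ((1 + e) * (2 * r) ^ n) := by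
  have h1 : ∀ (i : ι) (m : ℕ), ∀ᵐ x ∂(μH[n] : Measure X), x ∈ S i → ∃ ε > 0, ∀ r, 0 < r → r ≤ ε →
      μH[n] (closedBall x r) ≤ ENNReal.ofReal ((1 + 1 / ((m : ℝ) + 1)) * (2 * r) ^ n) := by
    intro i m
    obtain ⟨C, r₁, hr₁, hCi⟩ := hC i
    rw [ae_iff]
    refine null_of_upper hn C hr₁ _ ?_ (fun x hx => hCi x ?_)
      (e := Real.toNNReal (1 / ((m : ℝ) + 1))) ?_ ?_
    · refine ne_top_of_le_ne_top (hfin i) (measure_mono fun x hx => ?_)
      by_contra h
      exact hx fun h' => absurd h' h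
    · by_contra h
      exact hx fun h' => absurd h' h
    · have : (0 : ℝ) < 1 / ((m : ℝ) + 1) := by positivity
      exact Real.toNNReal_pos.2 this
    · intro x hx ε hε
      have hx' : ¬ ∃ ε > 0, ∀ r, 0 < r → r ≤ ε →
          μH[n] (closedBall x r) ≤ ENNReal.ofReal ((1 + 1 / ((m : ℝ) + 1)) * (2 * r) ^ n) :=
        fun h => hx fun _ => h
      push Not at hx'
      obtain ⟨r, hr0, hr, hlt⟩ := hx' ε hε
      refine ⟨r, hr0, hr, ?_⟩
      refine le_trans (le_of_eq ?_) hlt.le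
      rw [ENNReal.ofReal_mul (by positivity : (0 : ℝ) ≤ 1 + 1 / ((m : ℝ) + 1)),
        ← ENNReal.ofReal_rpow_of_pos (by positivity : (0 : ℝ) < 2 * r)]
      congr 1
      rw [ENNReal.ofReal_add zero_le_one (by positivity), ENNReal.ofReal_one]
      rfl
  have h2 := (ae_all_iff.2 fun i => ae_all_iff.2 fun m => h1 i m)
  filter_upwards [h2] with x hx e he
  obtain ⟨i, hi⟩ := hS x
  obtain ⟨m, hm⟩ := exists_nat_one_div_lt he
  obtain ⟨ε, hε, h⟩ := hx i m hi
  refine ⟨ε, hε, fun r hr0 hr => (h r hr0 hr).trans (ENNReal.ofReal_le_ofReal ?_)⟩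
  have : 0 ≤ (2 * r) ^ n := by positivity
  gcongr

end Vale.Agent.P242.H607
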