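import Vale.Agent.P242.H607.LowGeo
import Vale.Agent.P242.H448.P3g
import Vale.Agent.P242.H744.DropE

/-! P242, helper607 (package A-VOL): **Blk_Low**, the lower bound of the volume ratio at regular
points, from the almost harmonic maps. -/

set_option linter.all false

open Set Metric Filter Topology MeasureTheory
open scoped ENNReal NNReal InnerProductSpace

namespace Vale.Agent.P242.H607

universe u

open Vale.Agent.P233 Vale.Agent.P233.RA Vale.Agent.P242.H990 Vale.Agent.P242.H520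
open Vale.Agent.P242.H71

section cfg

variable {M : Type u} [MetricSpace M] [MeasurableSpace M] [BorelSpace M] {m : Measure M} {n : ℕ}
  {K : ℝ} {o : M} {A : ℝ} {p : ℝ → M → M → ℝ} {R Q η ρ : ℝ} {u : Fin n → M →ₘ[m] ℝ}
  {uu : M → E n}

/-- the constant of the gradient bound -/
noncomputable def gt (n : ℕ) (η : ℝ) : ℝ := Real.exp (2 * η) * (1 + (4 * n + 1) * η)

/-- **top-scale gradient bound**, averaged -/
theorem grad_top1 (hC : IsGamma (sob m)) (hB : (sob m).BEi (-|K|)) (hp : Ker0 m p)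
    (hk : KB n o A p) (hu : Cfg m n K o p R Q η ρ u uu) (hQ : 1 ≤ Q) (hη : 0 ≤ η) (v : E n)
    {z : M} (hz : z ∈ ball o (R * ρ)) {σ : ℝ} (hσ : 0 < σ) (hσs : σ ≤ ρ ^ 2) :
    PP m p σ z ((sob m).Γ (uc u v) (uc u v)) ≤ gt n η * ‖v‖ ^ 2 := by
  have hρ := hu.ρ_pos
  have hρ2 : 0 < ρ ^ 2 := by positivity
  have hQρ : ρ ^ 2 ≤ Q * ρ ^ 2 := by nlinarith
  have hQρ' : ρ ^ 2 / Q ≤ ρ ^ 2 := div_le_self hρ2.le hQ
  have hE : ∀ r, σ ≤ r → r ≤ ρ ^ 2 →
      |I (H990.ph m p r z * (sob m).Γ (uc u v) ((sob m).lap (uc u v)))| ≤ 2 * n * ‖v‖ ^ 2 * (η / ρ ^ 2) :=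
    fun r hr1 hr2 => H448.PP_mix_le hC hp hk hu hη v (hσ.trans_le hr1) (hr2.trans hQρ) hz
  have h1 := H448.sub_mean hC (abs_nonneg K) hB (H448.cen_ph hC hp hk z)
    (H751.uc_test hC hu v) hσ hσs (by positivity) hE
  have h2 := (abs_le.1 (hu.gram z hz (ρ ^ 2) hQρ' hQρ v v)).2
  have e1 : ⟪v, v⟫_ℝ = ‖v‖ ^ 2 := real_inner_self_eq_norm_sq v
  rw [e1] at h2
  have h3 : Gm m p u (ρ ^ 2) z v v ≤ (1 + η) * ‖v‖ ^ 2 := by nlinarith
  have h4 : Real.exp (2 * |K| * ρ ^ 2) ≤ Real.exp (2 * η) := by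
    apply Real.exp_le_exp.2
    have := hu.Kρ
    linarith
  have e2 : 2 * ρ ^ 2 * (2 * n * ‖v‖ ^ 2 * (η / ρ ^ 2)) = 4 * n * η * ‖v‖ ^ 2 := by
    field_simp
    ring
  rw [e2] at h1
  have h5 : 0 ≤ (1 + (4 * n + 1) * η) * ‖v‖ ^ 2 := by positivity
  unfold gt
  calc PP m p σ z ((sob m).Γ (uc u v) (uc u v))
      ≤ Real.exp (2 * |K| * ρ ^ 2) * (Gm m p u (ρ ^ 2) z v v + 4 * n * η * ‖v‖ ^ 2) := h1
    _ ≤ Real.exp (2 * |K| * ρ ^ 2) * ((1 + (4 * n + 1) * η) * ‖v‖ ^ 2) := by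
        gcongr
        linarith
    _ ≤ Real.exp (2 * η) * ((1 + (4 * n + 1) * η) * ‖v‖ ^ 2) := by gcongr
    _ = _ := by ring

/-- **top-scale gradient bound** -/
theorem grad_top2 (hC : IsGamma (sob m)) (hB : (sob m).BEi (-|K|)) (hp : Ker0 m p)
    (hk : KB n o A p) (hu : Cfg m n K o p R Q η ρ u uu) (hQ : 1 ≤ Q) (hη : 0 ≤ η) (v : E n) :
    ∀ᵐ z ∂m, z ∈ ball o (R * ρ) → (sob m).Γ (uc u v) (uc u v) z ≤ gt n η * ‖v‖ ^ 2 := by
  have htest := H751.uc_test hC hu v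
  have hρ := hu.ρ_pos
  exact H448.ae_le_of_avg hC.toIsDir hp (hC.toIsDir.memLp _ (hC.Γ_mem hB htest htest).1)
    (by positivity : 0 < ρ ^ 2) (fun z hz σ hσ hσs => grad_top1 hC hB hp hk hu hQ hη v hz hσ hσs)

/-- **top-scale Lipschitz bound** -/
theorem lip_top [CompleteSpace M] [SecondCountableTopology M] (hS : Std m K n)
    [m.IsOpenPosMeasure] (hB : (sob m).BEi (-|K|))
    (hp : Ker0 m p) (hk : KB n o A p) (hu : Cfg m n K o p 8 Q η ρ u uu) (hQ : 1 ≤ Q) (hη : 0 ≤ η)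
    {δ : ℝ} (hδ : 0 ≤ δ) (hg : gt n η ≤ 1 + δ) {y z : M} (hy : y ∈ ball o ρ) (hz : z ∈ ball o ρ) :
    ‖uu y - uu z‖ ^ 2 ≤ (1 + δ) * dist y z ^ 2 := by
  have hC := H599.std_gamma hS
  have hρ := hu.ρ_pos
  have hl : ∀ v : E n, Met.IsLip fun x => ⟪v, uu x⟫_ℝ := by
    intro v
    have h0 : (0 : ℝ) < 2 * √n * ‖v‖ + 1 := by positivity
    obtain ⟨U, hU, hUe⟩ := H599.lip_rep hS (H751.uc_W hC hu v)
      (L := Real.toNNReal (2 * √n * ‖v‖ + 1)) (Real.toNNReal_pos.2 h0) (by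
        rw [Real.coe_toNNReal _ h0.le]
        filter_upwards [H448.grad_glob hC hu v] with x hx
        refine hx.trans ?_
        have hn0 : (0 : ℝ) ≤ n := Nat.cast_nonneg n
        have e : 4 * (n : ℝ) * ‖v‖ ^ 2 = (2 * √n * ‖v‖) ^ 2 := by
          rw [mul_pow, mul_pow, Real.sq_sqrt hn0]
          ring
        rw [e]
        exact pow_le_pow_left₀ (by positivity) (by linarith) 2)
    have hc := H751.continuous_uc hu v
    have hae : (fun x => ⟪v, uu x⟫_ℝ) =ᵐ[m] U := by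
      filter_upwards [H751.uc_ae hu.rep v, hUe] with x h1 h2
      rw [← h1, h2]
    have heq := (Continuous.ae_eq_iff_eq m hc hU.continuous).1 hae
    rw [heq]
    exact ⟨_, hU⟩
  set w := uu y - uu z with hw
  have hyz : dist z y < 2 * ρ := by
    have h1 : dist z o < ρ := hz
    have h2 : dist y o < ρ := hy
    have := dist_triangle_right z y o
    linarith
  have hae : ∀ᵐ x ∂m, uc u w x = ⟪w, uu x⟫_ℝ := H751.uc_ae hu.rep w
  have h1 := Vale.Agent.P233.local_stl hS.hfin hS.rcd.sobolev_to_lipschitz (H751.uc_W hC hu w) (hl w) hae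
    (G := √(1 + δ) * ‖w‖) (R := 5 * ρ) (x := z) (y := y) (by positivity) (by linarith) (by
      filter_upwards [grad_top2 hC hB hp hk hu hQ hη w] with x hx hxz
      have h3 : x ∈ ball o (8 * ρ) := by
        have h4 : dist z o < ρ := hz
        have h5 := dist_triangle x z o
        rw [mem_ball]
        linarith
      refine (hx h3).trans ?_
      rw [mul_pow, Real.sq_sqrt (by linarith)]
      gcongr)
  have h2 : ⟪w, uu y⟫_ℝ - ⟪w, uu z⟫_ℝ = ‖w‖ ^ 2 := by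
    rw [← inner_sub_right, ← hw, real_inner_self_eq_norm_sq]
  rw [h2] at h1
  rcases (norm_nonneg w).eq_or_lt with h0 | h0
  · rw [← h0]
    have : 0 ≤ (1 + δ) * dist y z ^ 2 := by positivity
    simpa using this
  · have h3 : ‖w‖ ≤ √(1 + δ) * dist y z := by
      have h4 : ‖w‖ * ‖w‖ ≤ (√(1 + δ) * dist y z) * ‖w‖ := by
        rw [dist_comm z y] at h1
        linarith
      exact le_of_mul_le_mul_right h4 h0
    have h5 := pow_le_pow_left₀ h0.le h3 2
    rwa [mul_pow, Real.sq_sqrt (by linarith)] at h5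

/-- from averages to integrals on the ball -/
theorem ball_int_le (hp : Ker0 m p) (hk : KB n o A p) (hρ : 0 < ρ) (hρ1 : ρ ^ 2 ≤ 1 / 2)
    {F : M → ℝ} {G : M →ₘ[m] ℝ} (hFG : ∀ᵐ z ∂m, F z = G z)
    (hG : MemLp (H990.ph m p (ρ ^ 2) o * G : M →ₘ[m] ℝ) 1 m) (h0 : ∀ᵐ z ∂m, 0 ≤ G z) :
    ∫ z in ball o ρ, F z ∂m ≤ A * Real.exp A * ρ ^ n * PP m p (ρ ^ 2) o G := by
  have hA := hk.pos
  have hρ2 : 0 < ρ ^ 2 := by positivity
  have hi : Integrable (fun z => A * Real.exp A * ρ ^ n * (H990.ph m p (ρ ^ 2) o * G : M →ₘ[m] ℝ) z) m :=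
    (int_of_mem hG).const_mul _
  have hpos : ∀ᵐ z ∂m, 0 ≤ A * Real.exp A * ρ ^ n * (H990.ph m p (ρ ^ 2) o * G : M →ₘ[m] ℝ) z := by
    filter_upwards [h0, mul_ae (H990.ph m p (ρ ^ 2) o) G, nonneg_iff_ae.1 (H990.ph_nonneg hp hρ2 o)]
      with z a1 a2 a3
    rw [a2]
    positivity
  have h1 : ∫ z in ball o ρ, F z ∂m ≤
      ∫ z in ball o ρ, A * Real.exp A * ρ ^ n * (H990.ph m p (ρ ^ 2) o * G : M →ₘ[m] ℝ) z ∂m := by
    refine integral_mono_of_nonneg ?_ hi.restrict ?_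
    · refine ae_restrict_of_ae ?_
      filter_upwards [hFG, h0] with z a1 a2
      rw [a1]
      exact a2
    · refine (ae_restrict_iff' measurableSet_ball).2 ?_
      filter_upwards [hFG, h0, mul_ae (H990.ph m p (ρ ^ 2) o) G, H990.ph_ae hp hρ2 o] with z a1 a2 a3 a4 hz
      rw [a1, a3, a4]
      have h5 := hk.lower (ρ ^ 2) hρ2 hρ1 o z
      rw [dist_self, mul_zero, neg_zero, Real.exp_zero, mul_one, Real.sqrt_sq hρ.le] at h5
      have hz' : dist o z < ρ := by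
        rw [dist_comm]
        exact hz
      have h6 : Real.exp (-A) ≤ Real.exp (-(A * dist o z ^ 2 / ρ ^ 2)) := by
        apply Real.exp_le_exp.2
        rw [neg_le_neg_iff, div_le_iff₀ hρ2]
        have := pow_le_pow_left₀ dist_nonneg hz'.le 2
        gcongr
      have h7 : A⁻¹ * (ρ ^ n)⁻¹ * Real.exp (-A) ≤ p (ρ ^ 2) o z :=
        (mul_le_mul_of_nonneg_left h6 (by positivity)).trans h5
      have h8 : 1 ≤ A * Real.exp A * ρ ^ n * p (ρ ^ 2) o z := by
        have h9 := mul_le_mul_of_nonneg_left h7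
          (by positivity : (0 : ℝ) ≤ A * Real.exp A * ρ ^ n)
        have e : A * Real.exp A * ρ ^ n * (A⁻¹ * (ρ ^ n)⁻¹ * Real.exp (-A)) = 1 := by
          rw [Real.exp_neg]
          field_simp
        rwa [e] at h9
      calc G z = 1 * G z := (one_mul _).symm
        _ ≤ A * Real.exp A * ρ ^ n * p (ρ ^ 2) o z * G z := mul_le_mul_of_nonneg_right h8 a2
        _ = _ := by ring
  refine h1.trans ?_
  rw [integral_const_mul]
  refine mul_le_mul_of_nonneg_left ?_ (by positivity)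
  unfold PP I
  refine setIntegral_le_integral (int_of_mem hG) ?_
  filter_upwards [h0, mul_ae (H990.ph m p (ρ ^ 2) o) G, nonneg_iff_ae.1 (H990.ph_nonneg hp hρ2 o)]
    with z a1 a2 a3
  show 0 ≤ _
  rw [a2]
  exact mul_nonneg a3 a1

theorem uc_single (i : Fin n) : uc u (EuclideanSpace.single i (1 : ℝ)) = u i := by
  unfold uc
  rw [Finset.sum_eq_single i]
  · simp
  · intro j _ hj
    simp [hj]
  · intro h
    exact absurd (Finset.mem_univ i) h

theorem inner_single (i j : Fin n) :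
    ⟪(EuclideanSpace.single i (1 : ℝ) : E n), EuclideanSpace.single j (1 : ℝ)⟫_ℝ
      = if i = j then 1 else 0 := by
  rw [EuclideanSpace.inner_single_left]
  simp [Pi.single_apply]

theorem testI_lap_top (hC : IsGamma (sob m)) (hu : Cfg m n K o p R Q η ρ u uu) (i : Fin n) :
    MemLp ((sob m).lap (u i)) ∞ m := (hu.test i).2

/-- the Laplacian part of the defect -/
theorem lap_int (hC : IsGamma (sob m)) (hp : Ker0 m p) (hk : KB n o A p)
    (hu : Cfg m n K o p R Q η ρ u uu) (hR : 0 < R) (hQ : 1 ≤ Q) (hη : 0 < η)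
    (hfin : m (ball o ρ) ≠ ⊤) {Cv : ℝ} (hCv : m.real (ball o ρ) ≤ Cv * ρ ^ n) (i : Fin n) :
    ∫ z in ball o ρ, ρ * |(sob m).lap (u i) z| ∂m ≤ (A * Real.exp A + Cv) * η * ρ ^ n := by
  have hρ := hu.ρ_pos
  have hρ2 : 0 < ρ ^ 2 := by positivity
  have hA := hk.pos
  have hQρ : ρ ^ 2 ≤ Q * ρ ^ 2 := by nlinarith
  have hlt := testI_lap_top hC hu i
  have hl2 : MemLp ((sob m).lap (u i) ^ 2 : M →ₘ[m] ℝ) ∞ m := by
    rw [pow_two]
    exact mem_mul_top hlt hlt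
  have hoR : o ∈ ball o (R * ρ) := mem_ball_self (by positivity)
  have h1 := ball_int_le hp hk hρ (hQρ.trans hu.Qρ) (F := fun z => (sob m).lap (u i) z ^ 2)
    (G := (sob m).lap (u i) ^ 2) (by filter_upwards [sq_ae (f := (sob m).lap (u i))] with z hz; rw [hz])
    (mem_top_mul (H990.ph_mem1 hp hρ2 o) hl2)
    (by filter_upwards [sq_ae (f := (sob m).lap (u i))] with z hz; rw [hz]; positivity)
  have h2 := hu.lap1 o hoR (ρ ^ 2) hρ2 hQρ i
  haveI : IsFiniteMeasure (m.restrict (ball o ρ)) :=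
    ⟨by rw [Measure.restrict_apply_univ]; exact hfin.lt_top⟩
  have hi2 : Integrable (fun z => (sob m).lap (u i) z ^ 2) (m.restrict (ball o ρ)) := by
    obtain ⟨k, hk⟩ := mem_top_iff.1 hl2
    refine (Integrable.of_bound ((sob m).lap (u i) ^ 2 : M →ₘ[m] ℝ).aestronglyMeasurable.restrict k
      ?_).congr (ae_restrict_of_ae (sq_ae (f := (sob m).lap (u i))))
    exact ae_restrict_of_ae (by simpa using hk)
  have h3 : ∫ z in ball o ρ, ρ * |(sob m).lap (u i) z| ∂m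
      ≤ ∫ z in ball o ρ, (ρ ^ 2 / (2 * η) * (sob m).lap (u i) z ^ 2 + η / 2) ∂m := by
    refine integral_mono_of_nonneg (Eventually.of_forall fun z => by positivity)
      ((hi2.const_mul _).add (integrable_const _)) (Eventually.of_forall fun z => ?_)
    show ρ * |(sob m).lap (u i) z| ≤ ρ ^ 2 / (2 * η) * (sob m).lap (u i) z ^ 2 + η / 2
    set a := (sob m).lap (u i) z
    have e : ρ ^ 2 / (2 * η) * a ^ 2 + η / 2 - ρ * |a| = (ρ * |a| - η) ^ 2 / (2 * η) := by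
      rw [← sq_abs a]
      field_simp
      ring
    have : 0 ≤ (ρ * |a| - η) ^ 2 / (2 * η) := by positivity
    linarith
  have e2 : ∫ z in ball o ρ, (ρ ^ 2 / (2 * η) * (sob m).lap (u i) z ^ 2 + η / 2) ∂m
      = ρ ^ 2 / (2 * η) * (∫ z in ball o ρ, (sob m).lap (u i) z ^ 2 ∂m)
        + m.real (ball o ρ) * (η / 2) := by
    rw [integral_add (hi2.const_mul _) (integrable_const _), integral_const_mul, integral_const,
      smul_eq_mul, measureReal_restrict_apply_univ]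
  rw [e2] at h3
  have h4 : ρ ^ 2 / (2 * η) * ∫ z in ball o ρ, (sob m).lap (u i) z ^ 2 ∂m
      ≤ ρ ^ 2 / (2 * η) * (A * Real.exp A * ρ ^ n * (η / ρ) ^ 2) := by
    gcongr
    exact h1.trans (by gcongr)
  have e3 : ρ ^ 2 / (2 * η) * (A * Real.exp A * ρ ^ n * (η / ρ) ^ 2)
      = A * Real.exp A * (η / 2) * ρ ^ n := by
    field_simp
  rw [e3] at h4
  have h5 : m.real (ball o ρ) * (η / 2) ≤ Cv * ρ ^ n * (η / 2) := by gcongr
  have h6 : 0 ≤ Cv * ρ ^ n := measureReal_nonneg.trans hCv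
  have h7 : 0 ≤ A * Real.exp A * η * ρ ^ n := by positivity
  nlinarith [mul_nonneg h6 hη.le]

/-- the gradient part of the defect -/
theorem gram_int (hC : IsGamma (sob m)) (hp : Ker0 m p) (hk : KB n o A p)
    (hu : Cfg m n K o p R Q η ρ u uu) (hR : 0 < R) (hQ : 1 ≤ Q) (i j : Fin n) :
    ∫ z in ball o ρ, |(sob m).Γ (u i) (u j) z - if i = j then 1 else 0| ∂m
      ≤ A * Real.exp A * η * ρ ^ n := by
  have hρ := hu.ρ_pos
  have hρ2 : 0 < ρ ^ 2 := by positivity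
  have hA := hk.pos
  have hQρ : ρ ^ 2 ≤ Q * ρ ^ 2 := by nlinarith
  have hoR : o ∈ ball o (R * ρ) := mem_ball_self (by positivity)
  have h1 := hu.gram1 o hoR (ρ ^ 2) (div_le_self hρ2.le hQ) hQρ (EuclideanSpace.single i 1)
    (EuclideanSpace.single j 1)
  rw [uc_single, uc_single, inner_single] at h1
  have n1 : ∀ k : Fin n, ‖(EuclideanSpace.single k (1 : ℝ) : E n)‖ = 1 := by
    intro k
    simp
  rw [n1, n1, mul_one, mul_one] at h1
  set G : M →ₘ[m] ℝ := |(sob m).Γ (u i) (u j) - (if i = j then (1 : ℝ) else 0) • (1 : M →ₘ[m] ℝ)|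
    with hG
  have hae : ∀ᵐ z ∂m, |(sob m).Γ (u i) (u j) z - if i = j then 1 else 0| = G z := by
    filter_upwards [AEEqFun.coeFn_abs ((sob m).Γ (u i) (u j) -
        (if i = j then (1 : ℝ) else 0) • (1 : M →ₘ[m] ℝ)),
      sub_ae (f := (sob m).Γ (u i) (u j)) (g := (if i = j then (1 : ℝ) else 0) • (1 : M →ₘ[m] ℝ)),
      smul_ae (1 : M →ₘ[m] ℝ) (if i = j then (1 : ℝ) else 0), one_ae (M := M) (m := m)]
      with z a1 a2 a3 a4
    rw [hG, a1, a2, a3, a4, mul_one]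
  have ht : MemLp G ∞ m := by
    have h2 : MemLp ((sob m).Γ (u i) (u j)) ∞ m := by
      have := H751.Γ_top hC hu (EuclideanSpace.single i 1) (EuclideanSpace.single j 1)
      rwa [uc_single, uc_single] at this
    refine (mem_sub h2 (mem_smul (if i = j then (1 : ℝ) else 0) mem_top_one)).abs.ae_eq ?_
    exact (AEEqFun.coeFn_abs _).symm
  have h3 := ball_int_le hp hk hρ (hQρ.trans hu.Qρ) hae
    (mem_top_mul (H990.ph_mem1 hp hρ2 o) ht) (by filter_upwards [hae] with z hz; rw [← hz]; positivity)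
  refine h3.trans ?_
  have h4 : PP m p (ρ ^ 2) o G ≤ η := h1
  calc A * Real.exp A * ρ ^ n * PP m p (ρ ^ 2) o G ≤ A * Real.exp A * ρ ^ n * η := by gcongr
    _ = _ := by ring

/-- **the defect of the maps of a configuration** -/
theorem er_le (hC : IsGamma (sob m)) (hp : Ker0 m p) (hk : KB n o A p)
    (hu : Cfg m n K o p R Q η ρ u uu) (hR : 0 < R) (hQ : 1 ≤ Q) (hη : 0 < η)
    (hfin : m (ball o ρ) ≠ ⊤) {Cv : ℝ} (hCv0 : 0 ≤ Cv) (hCv : m.real (ball o ρ) ≤ Cv * ρ ^ n) :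
    ∫ z in ball o ρ, er (sob m) u ρ z ∂m
      ≤ (n + n ^ 2) * (A * Real.exp A + Cv) * η * ρ ^ n := by
  have hρ := hu.ρ_pos
  have hA := hk.pos
  haveI : IsFiniteMeasure (m.restrict (ball o ρ)) :=
    ⟨by rw [Measure.restrict_apply_univ]; exact hfin.lt_top⟩
  have i1 : ∀ i, Integrable (fun z => ρ * |(sob m).lap (u i) z|) (m.restrict (ball o ρ)) := by
    intro i
    obtain ⟨k, hk⟩ := mem_top_iff.1 (testI_lap_top hC hu i)
    exact (Integrable.of_bound ((sob m).lap (u i)).aestronglyMeasurable.restrict k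
      (ae_restrict_of_ae (by simpa using hk))).abs.const_mul _
  have i2 : ∀ i j, Integrable (fun z => |(sob m).Γ (u i) (u j) z - if i = j then 1 else 0|)
      (m.restrict (ball o ρ)) := by
    intro i j
    have h2 : Integrable (fun x => (sob m).Γ (u i) (u j) x) (m.restrict (ball o ρ)) :=
      (int_of_mem (hC.Γ_mem1 (hC.test_A (hu.test i).1).1 (hC.test_A (hu.test j).1).1)).restrict
    exact (h2.sub (integrable_const _)).abs
  have e1 : ∫ z in ball o ρ, er (sob m) u ρ z ∂m = ∑ i, ∫ z in ball o ρ, ρ * |(sob m).lap (u i) z| ∂m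
      + ∑ i, ∑ j, ∫ z in ball o ρ, |(sob m).Γ (u i) (u j) z - if i = j then 1 else 0| ∂m := by
    unfold er
    simp_rw [Finset.mul_sum]
    rw [integral_add (integrable_finset_sum _ fun i _ => i1 i)
      (integrable_finset_sum _ fun i _ => integrable_finset_sum _ fun j _ => i2 i j),
      integral_finset_sum _ fun i _ => i1 i,
      integral_finset_sum _ fun i _ => integrable_finset_sum _ fun j _ => i2 i j]
    congr 1
    refine Finset.sum_congr rfl fun i _ => ?_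
    rw [integral_finset_sum _ fun j _ => i2 i j]
  rw [e1]
  have b1 : ∑ i, ∫ z in ball o ρ, ρ * |(sob m).lap (u i) z| ∂m
      ≤ n * ((A * Real.exp A + Cv) * η * ρ ^ n) := by
    refine (Finset.sum_le_card_nsmul _ _ _ fun i _ =>
      lap_int hC hp hk hu hR hQ hη hfin hCv i).trans (le_of_eq ?_)
    simp
  have b2 : ∑ i, ∑ j, ∫ z in ball o ρ, |(sob m).Γ (u i) (u j) z - if i = j then 1 else 0| ∂m
      ≤ n * (n * (A * Real.exp A * η * ρ ^ n)) := by
    refine (Finset.sum_le_card_nsmul _ _ _ fun i _ => Finset.sum_le_card_nsmul _ _ _ fun j _ =>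
      gram_int hC hp hk hu hR hQ i j).trans (le_of_eq ?_)
    simp
  have b3 : 0 ≤ (n : ℝ) ^ 2 * Cv * η * ρ ^ n := by positivity
  linarith

end cfg

theorem bei_mono {M : Type u} [MeasurableSpace M] {m : Measure M} {C : Calc m} (hC : IsGamma C)
    {κ κ' : ℝ} (hB : C.BEi κ) (h : κ' ≤ κ) : C.BEi κ' := by
  intro f g φ ψ h1 h2 h3 h4 h5 h6
  refine le_trans ?_ (hB f g φ ψ h1 h2 h3 h4 h5 h6)
  have hfW := h1.1
  have m1 : MemLp (φ * (C.Γ f g + κ' • C.Γ f f) : M →ₘ[m] ℝ) 1 m :=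
    mem_mul_top h5 (mem_add (hC.toIsDir.Γ_mem1 hfW h2) (mem_smul _ (hC.mem1 f hfW)))
  have m2 : MemLp (φ * (C.Γ f g + κ • C.Γ f f) : M →ₘ[m] ℝ) 1 m :=
    mem_mul_top h5 (mem_add (hC.toIsDir.Γ_mem1 hfW h2) (mem_smul _ (hC.mem1 f hfW)))
  refine I_mono m1 m2 ?_
  refine mul_le_mul_of_nonneg_left ?_ h4
  have e : C.Γ f g + κ • C.Γ f f = (C.Γ f g + κ' • C.Γ f f) + (κ - κ') • C.Γ f f := by module
  rw [e, le_add_iff_nonneg_right]
  exact smul_nonneg' (by linarith) (hC.nonneg f hfW)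

/-- the choice of `η` -/
theorem choose_eta (n : ℕ) {δ D : ℝ} (hδ : 0 < δ) (hD : 0 ≤ D) : ∃ η : ℝ, 0 < η ∧ η ≤ 1 / 4 ∧ η ≤ δ ∧
    gt n η ≤ 1 + δ ∧ D * η ≤ δ := by
  have h1 : ContinuousAt (fun e : ℝ => gt n e) 0 := by unfold gt; fun_prop
  have h2 : ContinuousAt (fun e : ℝ => D * e) 0 := by fun_prop
  have h3 : ∀ᶠ e : ℝ in 𝓝 0, gt n e < 1 + δ := by
    refine h1.eventually (gt_mem_nhds ?_)
    unfold gt
    simp
    exact hδ
  have h4 : ∀ᶠ e : ℝ in 𝓝 0, D * e < δ := by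
    refine h2.eventually (gt_mem_nhds ?_)
    simp
    exact hδ
  have h5 : ∀ᶠ e : ℝ in 𝓝[>] (0 : ℝ), gt n e < 1 + δ ∧ D * e < δ :=
    (h3.and h4).filter_mono nhdsWithin_le_nhds
  obtain ⟨η, ⟨a1, a2⟩, a3⟩ := (h5.and
    (Ioc_mem_nhdsGT (show (0 : ℝ) < min (1 / 4) δ from lt_min (by norm_num) hδ))).exists
  exact ⟨η, a3.1, a3.2.trans (min_le_left _ _), a3.2.trans (min_le_right _ _), a1.le, a2.le⟩

/-- **Blk_Low** -/
theorem blk_Low_of (h : Blk_Maps.{u}) : H744.Blk_Low.{u} := by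
  intro M _ _ _ _ _ m n K o A p e hreg δ₀ hδ₀ r₀ hr₀
  have hn := e.hyp.two_le
  have hn1 : 1 ≤ n := by omega
  have hS := H751.env_std e
  have hC := H751.env_gamma e
  have hG := H751.env_geoN e
  haveI := hG.geo.proper
  haveI := e.hyp.full
  have hB : (sob m).BEi (-|K|) := bei_mono hC (H751.env_bei e) (neg_abs_le K)
  obtain ⟨c, hc, C, hvol⟩ := hG.geo.vol o 2
  set Cv := max C 0 with hCv
  have hCv0 : 0 ≤ Cv := le_max_right _ _
  obtain ⟨δ, hδ, hmain⟩ := vol_ratio_low.{u} n hn1 hc hCv0 (lt_min hδ₀ one_pos) (min_le_right δ₀ 1)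
  have hA := e.kb.pos
  obtain ⟨η, hη, hη1, hη2, hη3, hη4⟩ := choose_eta n (D := (n + n ^ 2) * (A * Real.exp A + Cv)) hδ
    (by positivity)
  obtain ⟨ρ, hρ1, u, uu, hu⟩ := h M m n K o A p e hreg 8 1 η (min r₀ 1) (by norm_num) le_rfl hη
    (lt_min hr₀ one_pos)
  have hρ := hu.ρ_pos
  have hρr : ρ ≤ r₀ := hρ1.trans (min_le_left _ _)
  have hρ1' : ρ ≤ 1 := hρ1.trans (min_le_right _ _)
  have hvl : ∀ y ∈ ball o ρ, ∀ r, 0 < r → r ≤ ρ → c * r ^ n ≤ m.real (ball y r) := by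
    intro y hy r hr hrρ
    have hy2 : y ∈ ball o 2 := ball_subset_ball (by linarith) hy
    have h1 := (hvol y hy2 r hr (by linarith)).1
    exact (ENNReal.ofReal_le_iff_le_toReal (hG.fin y r).ne).1 h1
  have hvu : ∀ r, 0 < r → r ≤ ρ → m.real (ball o r) ≤ Cv * r ^ n := by
    intro r hr hrρ
    have h1 := (hvol o (mem_ball_self (by norm_num)) r hr (by linarith)).2
    have h2 : m (ball o r) ≤ ENNReal.ofReal (Cv * r ^ n) := by
      refine h1.trans (ENNReal.ofReal_le_ofReal ?_)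
      have : C ≤ Cv := le_max_left _ _
      gcongr
    exact ENNReal.toReal_le_of_le_ofReal (by positivity) h2
  have hcl : ∀ i, cl m (fun x => uu x i) = u i := by
    intro i
    have hci : Continuous fun x => uu x i :=
      (EuclideanSpace.proj (𝕜 := ℝ) i).continuous.comp hu.cont
    rw [eq_iff_ae]
    filter_upwards [H866.cl_ae (m := m) hci, hu.rep i] with x h1 h2
    rw [h1, h2]
  have hfin := (hG.fin o ρ).ne
  have hres := hmain hS e.hyp.haus o ρ hρ (hu.Kρ.trans hη2) (isCompact_closedBall o (ρ / 4))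
    (ball_conn hG.geo.geod o (ρ / 4)) (sphere_pt hn1 hG.geo.geod hu hη.le hη1) hvl hvu
    (fun i x => uu x i) (fun i => (EuclideanSpace.proj (𝕜 := ℝ) i).continuous.comp hu.cont)
    (fun i => by rw [hcl i]; exact hu.test i)
    (fun y hy z hz => by
      have h1 := lip_top hS hB e.ker e.kb hu le_rfl hη.le hδ.le hη3 hy hz
      rw [EuclideanSpace.norm_sq_eq] at h1
      refine le_trans (le_of_eq ?_) h1
      refine Finset.sum_congr rfl fun i _ => ?_
      rw [Real.norm_eq_abs, sq_abs]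
      rfl)
    (by
      simp_rw [hcl]
      refine (er_le hC e.ker e.kb hu (by norm_num) le_rfl hη hfin hCv0 (hvu ρ hρ le_rfl)).trans ?_
      gcongr)
  refine ⟨ρ / 64, by positivity, by linarith, ?_⟩
  refine le_trans ?_ hres
  have : min δ₀ 1 ≤ δ₀ := min_le_left _ _
  gcongr

end Vale.Agent.P242.H607
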