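import Vale.Agent.P242.H607.Ratio
import Vale.Agent.P233.H939.BMp
import Vale.Agent.P233.CD.If3b

/-! P242, helper607 (package A-VOL): Bishop-Gromov with explicit constants and the volume of small
balls near a regular point. -/

set_option linter.all false

open Set Metric Filter Topology MeasureTheory
open scoped ContDiff InnerProductSpace

namespace Vale.Agent.P242.H607

universe u

open Vale.Agent.P233 Vale.Agent.P233.H227.Ch

section

variable {M : Type u} [MetricSpace M] [CompleteSpace M] [SecondCountableTopology M]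
  [MeasurableSpace M] [BorelSpace M] {m : Measure M} {n : ℕ} {K : ℝ}

/-- **Bishop-Gromov.** -/
theorem bg_sharp (h : CD.Hyp m n K) [ProperSpace M] (p : M) {r R : ℝ} (hr : 0 < r) (hrR : r ≤ R) :
    ENNReal.ofReal ((r / R) ^ n * Real.exp (-(|K| * R ^ 2 / 6))) * m (closedBall p R) ≤
      m (closedBall p r) := by
  have hR : 0 < R := hr.trans_le hrR
  rcases hrR.eq_or_lt with heq | hlt
  · rw [heq, div_self hR.ne', one_pow, one_mul]
    calc ENNReal.ofReal (Real.exp (-(|K| * R ^ 2 / 6))) * m (closedBall p R)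
        ≤ 1 * m (closedBall p R) := by
          gcongr
          rw [ENNReal.ofReal_le_one]
          refine Real.exp_le_one_iff.2 ?_
          have : 0 ≤ |K| * R ^ 2 / 6 := by positivity
          linarith
      _ = m (closedBall p R) := one_mul _
  · haveI := h.full
    set t : ℝ := 1 - r / R with ht
    have hs0 : 0 < r / R := by positivity
    have hs1 : r / R < 1 := (div_lt_one hR).2 hlt
    have ht1 : 1 - t = r / R := by rw [ht]; ring
    have hn : (1 : ℝ) < n := by exact_mod_cast h.two_le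
    have h1 := H939.BM.bm_exp (m := m) h.rcd.fin h.rcd.cd hn (isCompact_closedBall p R) p
      (t := t) (by linarith) (by linarith) (c := -(|K| * R ^ 2)) (fun x hx => by
        have h2 : dist x p ≤ R := hx
        have h3 : dist x p ^ 2 ≤ R ^ 2 := pow_le_pow_left₀ dist_nonneg h2 2
        have h4 : |K| * dist x p ^ 2 ≤ |K| * R ^ 2 := mul_le_mul_of_nonneg_left h3 (abs_nonneg _)
        have h5 : -|K| * dist x p ^ 2 ≤ K * dist x p ^ 2 :=
          mul_le_mul_of_nonneg_right (neg_abs_le K) (sq_nonneg _)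
        linarith)
    rw [ht1, Real.rpow_natCast] at h1
    refine le_trans ?_ (h1.trans (measure_mono ?_))
    · gcongr
      have h2 : 0 ≤ |K| * R ^ 2 := by positivity
      have h3 : 0 ≤ (r / R) ^ 2 := sq_nonneg _
      nlinarith
    · rintro z ⟨x, hx, h2, h3⟩
      have h4 : dist x p ≤ R := hx
      rw [mem_closedBall, h3, ht1]
      calc r / R * dist x p ≤ r / R * R := by gcongr
        _ = r := by field_simp

theorem real_le_of_mul {a b V W : ℝ} (ha : 0 < a) (hb : 0 < b) (h : a * b * V ≤ W) :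
    V ≤ a⁻¹ * b⁻¹ * W := by
  have h1 : V = a⁻¹ * b⁻¹ * (a * b * V) := by field_simp
  rw [h1]
  exact mul_le_mul_of_nonneg_left h (by positivity)

theorem closedBall_ne_top (h : CD.Hyp m n K) (p : M) (r : ℝ) : m (closedBall p r) ≠ ⊤ :=
  ne_top_of_le_ne_top (h.rcd.fin p (r + 1)).ne
    (measure_mono (closedBall_subset_ball (by linarith)))

/-- Bishop-Gromov in real numbers -/
theorem bg_real (h : CD.Hyp m n K) [ProperSpace M] (p : M) {r R : ℝ} (hr : 0 < r) (hrR : r ≤ R) :
    m.real (closedBall p R) ≤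
      (R / r) ^ n * Real.exp (|K| * R ^ 2 / 6) * m.real (closedBall p r) := by
  have hR : 0 < R := hr.trans_le hrR
  have h1 := bg_sharp h p hr hrR
  have h2 : (r / R) ^ n * Real.exp (-(|K| * R ^ 2 / 6)) * m.real (closedBall p R) ≤
      m.real (closedBall p r) := by
    have h3 := ENNReal.toReal_mono (closedBall_ne_top h p r) h1
    rw [ENNReal.toReal_mul, ENNReal.toReal_ofReal (by positivity)] at h3
    exact h3
  refine (real_le_of_mul (by positivity) (Real.exp_pos _) h2).trans (le_of_eq ?_)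
  rw [← Real.exp_neg, neg_neg, ← inv_pow, inv_div]

/-- upper bound for the volume of balls, almost everywhere -/
theorem vol_upper_ae (h : CD.Hyp m n K) [ProperSpace M] : ∀ᵐ z ∂m, ∀ R : ℝ, 0 < R →
    m.real (closedBall z R) ≤ Real.exp (|K| * R ^ 2 / 6) * (2 * R) ^ n := by
  have hn : (0 : ℝ) < n := by exact_mod_cast (by have := h.two_le; omega : 0 < n)
  obtain ⟨x0⟩ := h.rcd.ne
  have hm := h.haus
  haveI : IsLocallyFiniteMeasure (μH[(n : ℝ)] : Measure M) := by
    rw [← hm]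
    exact ⟨fun x => ⟨ball x 1, ball_mem_nhds x one_pos, h.rcd.fin x 1⟩⟩
  have key := ae_upper_density (X := M) (n := (n : ℝ)) hn (ι := ℕ) (fun i => ball x0 i)
    (fun y => by
      obtain ⟨i, hi⟩ := exists_nat_gt (dist y x0)
      exact ⟨i, hi⟩)
    (fun i => by rw [← hm]; exact (h.rcd.fin x0 i).ne)
    (fun i => by
      refine ⟨Real.toNNReal (3 ^ n * Real.exp (|K| * 9 / 6)), 1, one_pos, fun y _ r hr hr1 => ?_⟩
      rw [← hm]
      have h1 := bg_real h y hr (show r ≤ 3 * r by linarith)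
      have h2 : Real.exp (|K| * (3 * r) ^ 2 / 6) ≤ Real.exp (|K| * 9 / 6) := by
        refine Real.exp_le_exp.2 ?_
        have : (3 * r) ^ 2 ≤ 9 := by nlinarith
        have := mul_le_mul_of_nonneg_left this (abs_nonneg K)
        linarith
      have e1 : 3 * r / r = 3 := by field_simp
      rw [e1] at h1
      have h3 : m.real (closedBall y (3 * r)) ≤
          3 ^ n * Real.exp (|K| * 9 / 6) * m.real (closedBall y r) := by
        refine h1.trans ?_
        gcongr
      rw [← ENNReal.ofReal_toReal (closedBall_ne_top h y (3 * r)),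
        ← ENNReal.ofReal_toReal (closedBall_ne_top h y r)]
      show ENNReal.ofReal (m.real (closedBall y (3 * r))) ≤ _ * ENNReal.ofReal (m.real _)
      rw [show ((Real.toNNReal (3 ^ n * Real.exp (|K| * 9 / 6)) : NNReal) : ENNReal) =
        ENNReal.ofReal (3 ^ n * Real.exp (|K| * 9 / 6)) from rfl,
        ← ENNReal.ofReal_mul (by positivity)]
      exact ENNReal.ofReal_le_ofReal h3)
  rw [← hm] at key
  filter_upwards [key] with z hz R hR
  refine le_of_forall_pos_le_add fun e he => ?_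
  set A : ℝ := Real.exp (|K| * R ^ 2 / 6) * (2 * R) ^ n with hA
  have hA0 : 0 < A := by positivity
  obtain ⟨ε, hε, h1⟩ := hz (e / A) (by positivity)
  set r := min ε R with hr
  have hr0 : 0 < r := lt_min hε hR
  have h2 := h1 r hr0 (min_le_left _ _)
  have h3 := bg_real h z hr0 (min_le_right ε R)
  rw [Real.rpow_natCast] at h2
  have h4 : m.real (closedBall z r) ≤ (1 + e / A) * (2 * r) ^ n :=
    ENNReal.toReal_le_of_le_ofReal (by positivity) h2
  calc m.real (closedBall z R)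
      ≤ (R / r) ^ n * Real.exp (|K| * R ^ 2 / 6) * ((1 + e / A) * (2 * r) ^ n) := by
        refine h3.trans ?_
        gcongr
    _ = (1 + e / A) * A := by
        rw [hA]
        have : (R / r) ^ n * (2 * r) ^ n = (2 * R) ^ n := by
          rw [← mul_pow]
          congr 1
          field_simp
        calc (R / r) ^ n * Real.exp (|K| * R ^ 2 / 6) * ((1 + e / A) * (2 * r) ^ n)
            = (1 + e / A) * (Real.exp (|K| * R ^ 2 / 6) * ((R / r) ^ n * (2 * r) ^ n)) := by ring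
          _ = _ := by rw [this]
    _ = A + e := by
        field_simp

/-- **Upper bound for the volume of balls.** -/
theorem vol_upper (h : CD.Hyp m n K) [ProperSpace M] (z : M) {R : ℝ} (hR : 0 < R) :
    m.real (closedBall z R) ≤ Real.exp (|K| * R ^ 2 / 6) * (2 * R) ^ n := by
  have hae := vol_upper_ae h
  haveI := h.full
  have key : ∀ ε : ℝ, 0 < ε → m.real (closedBall z R) ≤
      Real.exp (|K| * (R + ε) ^ 2 / 6) * (2 * (R + ε)) ^ n := by
    intro ε hε
    have hpos : 0 < m (ball z ε) := measure_ball_pos m z hε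
    have hne : ∃ z' ∈ ball z ε, ∀ R : ℝ, 0 < R →
        m.real (closedBall z' R) ≤ Real.exp (|K| * R ^ 2 / 6) * (2 * R) ^ n := by
      by_contra hcon
      push Not at hcon
      have : ball z ε ⊆ {z' | ¬ ∀ R : ℝ, 0 < R →
          m.real (closedBall z' R) ≤ Real.exp (|K| * R ^ 2 / 6) * (2 * R) ^ n} := by
        intro z' hz'
        obtain ⟨R', hR', h2⟩ := hcon z' hz'
        exact fun h3 => absurd (h3 R' hR') (not_le.2 h2)
      exact absurd (measure_mono_null this (ae_iff.1 hae)) hpos.ne'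
    obtain ⟨z', hz', h2⟩ := hne
    refine le_trans ?_ (h2 (R + ε) (by linarith))
    refine measureReal_mono ?_ (closedBall_ne_top h z' _)
    refine closedBall_subset_closedBall' ?_
    have : dist z' z < ε := hz'
    rw [dist_comm]
    linarith
  have hc : Continuous fun ε : ℝ => Real.exp (|K| * (R + ε) ^ 2 / 6) * (2 * (R + ε)) ^ n := by
    fun_prop
  have hl : Tendsto (fun ε : ℝ => Real.exp (|K| * (R + ε) ^ 2 / 6) * (2 * (R + ε)) ^ n) (𝓝[>] 0)
      (𝓝 (Real.exp (|K| * (R + 0) ^ 2 / 6) * (2 * (R + 0)) ^ n)) :=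
    (hc.tendsto 0).mono_left nhdsWithin_le_nhds
  rw [add_zero] at hl
  refine ge_of_tendsto hl ?_
  filter_upwards [self_mem_nhdsWithin] with ε hε
  exact key ε hε

/-- lower bound for the volume near a ball with almost maximal volume -/
theorem vol_lower_near (h : CD.Hyp m n K) [ProperSpace M] {p y : M} {r₀ ψ t : ℝ} (hr₀ : 0 < r₀)
    (hp : (1 - ψ) * (2 * r₀) ^ n ≤ m.real (closedBall p r₀)) (ht : 0 < t)
    (ht1 : t ≤ r₀ + dist y p) :
    (1 - ψ) * (Real.exp (-(|K| * (r₀ + dist y p) ^ 2 / 6)) * (r₀ / (r₀ + dist y p)) ^ n) *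
      (2 * t) ^ n ≤ m.real (closedBall y t) := by
  set ρ := r₀ + dist y p with hρ
  have hρ0 : 0 < ρ := by have : 0 ≤ dist y p := dist_nonneg; linarith
  have h1 : m.real (closedBall p r₀) ≤ m.real (closedBall y ρ) := by
    refine measureReal_mono ?_ (closedBall_ne_top h y _)
    refine closedBall_subset_closedBall' ?_
    rw [dist_comm]
  have h2 := bg_real h y ht ht1
  have h3 : (1 - ψ) * (2 * r₀) ^ n ≤
      (ρ / t) ^ n * Real.exp (|K| * ρ ^ 2 / 6) * m.real (closedBall y t) := hp.trans (h1.trans h2)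
  have e1 : (1 - ψ) * (Real.exp (-(|K| * ρ ^ 2 / 6)) * (r₀ / ρ) ^ n) * (2 * t) ^ n =
      (t / ρ) ^ n * Real.exp (-(|K| * ρ ^ 2 / 6)) * ((1 - ψ) * (2 * r₀) ^ n) := by
    have : (r₀ / ρ) ^ n * (2 * t) ^ n = (t / ρ) ^ n * (2 * r₀) ^ n := by
      rw [← mul_pow, ← mul_pow]
      congr 1
      ring
    linear_combination (1 - ψ) * Real.exp (-(|K| * ρ ^ 2 / 6)) * this
  rw [e1]
  calc (t / ρ) ^ n * Real.exp (-(|K| * ρ ^ 2 / 6)) * ((1 - ψ) * (2 * r₀) ^ n)
      ≤ (t / ρ) ^ n * Real.exp (-(|K| * ρ ^ 2 / 6)) *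
        ((ρ / t) ^ n * Real.exp (|K| * ρ ^ 2 / 6) * m.real (closedBall y t)) := by
        gcongr
    _ = ((t / ρ) ^ n * (ρ / t) ^ n) * (Real.exp (-(|K| * ρ ^ 2 / 6)) *
          Real.exp (|K| * ρ ^ 2 / 6)) * m.real (closedBall y t) := by ring
    _ = m.real (closedBall y t) := by
        rw [← mul_pow, ← Real.exp_add]
        have : t / ρ * (ρ / t) = 1 := by field_simp
        rw [this]
        simp

/-- **Volume of small balls near a point with almost maximal volume ratio at small scales.** -/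
theorem ratio_near (h : CD.Hyp m n K) [ProperSpace M] (p : M)
    (H : ∀ ψ : ℝ, 0 < ψ → ∀ R₀ : ℝ, 0 < R₀ → ∃ r₀, 0 < r₀ ∧ r₀ ≤ R₀ ∧
      (1 - ψ) * (2 * r₀) ^ n ≤ m.real (closedBall p r₀)) {ψ : ℝ} (hψ : 0 < ψ) (hψ1 : ψ ≤ 1) :
    ∃ r₁ > 0, ∀ y ∈ ball p r₁, ∀ t, 0 < t → t ≤ r₁ →
      (1 - ψ) * (2 * t) ^ n ≤ m.real (closedBall y t) ∧
      m.real (closedBall y t) ≤ (1 + ψ) * (2 * t) ^ n := by
  -- smallness of the exponential factors
  have hc1 : Tendsto (fun r : ℝ => Real.exp (|K| * r ^ 2 / 6)) (𝓝[>] 0) (𝓝 1) := by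
    have : Continuous fun r : ℝ => Real.exp (|K| * r ^ 2 / 6) := by fun_prop
    have h1 := (this.tendsto 0).mono_left (nhdsWithin_le_nhds (s := Ioi 0))
    simpa using h1
  have hc2 : Tendsto (fun r : ℝ => (1 - ψ / 2) * Real.exp (-(|K| * (2 * r) ^ 2 / 6))) (𝓝[>] 0)
      (𝓝 (1 - ψ / 2)) := by
    have : Continuous fun r : ℝ => (1 - ψ / 2) * Real.exp (-(|K| * (2 * r) ^ 2 / 6)) := by fun_prop
    have h1 := (this.tendsto 0).mono_left (nhdsWithin_le_nhds (s := Ioi 0))
    simpa using h1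
  have ev1 : ∀ᶠ r : ℝ in 𝓝[>] 0, Real.exp (|K| * r ^ 2 / 6) < 1 + ψ :=
    hc1.eventually (gt_mem_nhds (by linarith))
  have ev2 : ∀ᶠ r : ℝ in 𝓝[>] 0, 1 - ψ < (1 - ψ / 2) * Real.exp (-(|K| * (2 * r) ^ 2 / 6)) :=
    hc2.eventually (lt_mem_nhds (by linarith))
  obtain ⟨R₀, hR₀, hR1⟩ := mem_nhdsGT_iff_exists_Ioc_subset.1 (ev1.and ev2)
  rw [mem_Ioi] at hR₀
  obtain ⟨r₀, hr₀, hr₀R, hvol⟩ := H (ψ / 2) (by linarith) R₀ hR₀
  have hR2 : ∀ r, 0 < r → r ≤ R₀ → Real.exp (|K| * r ^ 2 / 6) < 1 + ψ ∧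
      1 - ψ < (1 - ψ / 2) * Real.exp (-(|K| * (2 * r) ^ 2 / 6)) := fun r h1 h2 => hR1 ⟨h1, h2⟩
  -- the factor `(r₀ / (r₀ + d))^n`
  have hc3 : ContinuousAt (fun d : ℝ => (1 - ψ / 2) *
      (Real.exp (-(|K| * (2 * r₀) ^ 2 / 6)) * (r₀ / (r₀ + d)) ^ n)) 0 := by
    have : ContinuousAt (fun d : ℝ => r₀ / (r₀ + d)) 0 :=
      continuousAt_const.div (by fun_prop) (by simpa using hr₀.ne')
    fun_prop
  have ev3 : ∀ᶠ d : ℝ in 𝓝 0, 1 - ψ < (1 - ψ / 2) *
      (Real.exp (-(|K| * (2 * r₀) ^ 2 / 6)) * (r₀ / (r₀ + d)) ^ n) := by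
    refine hc3.eventually (lt_mem_nhds ?_)
    show 1 - ψ < (1 - ψ / 2) *
      (Real.exp (-(|K| * (2 * r₀) ^ 2 / 6)) * (r₀ / (r₀ + 0)) ^ n)
    rw [add_zero, div_self hr₀.ne', one_pow, mul_one]
    exact (hR2 r₀ hr₀ hr₀R).2
  obtain ⟨d₀, hd₀, hd1⟩ := Metric.eventually_nhds_iff.1 ev3
  refine ⟨min r₀ d₀, lt_min hr₀ hd₀, fun y hy t ht ht1 => ?_⟩
  have hyr : dist y p < r₀ := (mem_ball.1 hy).trans_le (min_le_left _ _)
  have hyd : dist y p < d₀ := (mem_ball.1 hy).trans_le (min_le_right _ _)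
  have htr : t ≤ r₀ := ht1.trans (min_le_left _ _)
  have hd0 : 0 ≤ dist y p := dist_nonneg
  have ht2 : 0 < (2 * t) ^ n := by positivity
  constructor
  · have h1 := vol_lower_near h hr₀ hvol ht (y := y) (by linarith)
    refine le_trans ?_ h1
    refine mul_le_mul_of_nonneg_right ?_ ht2.le
    have h2 := hd1 (y := dist y p) (by rw [Real.dist_eq, sub_zero, abs_of_nonneg hd0]; exact hyd)
    have hψ2 : 0 ≤ 1 - ψ / 2 := by linarith
    refine h2.le.trans ?_
    gcongr
    linarith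
  · have h1 := vol_upper h y ht
    refine h1.trans (mul_le_mul_of_nonneg_right ?_ ht2.le)
    exact (hR2 t ht (htr.trans hr₀R)).1.le

end

end Vale.Agent.P242.H607
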