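import Mathlib

/-! P242, helper607 (package VOL-SURJ): a compactly supported radial function on `ℝⁿ` whose
Laplacian is nonnegative outside the unit ball and positive for `2 ≤ |y| ≤ 3`. -/

set_option linter.all false

open Set Metric Filter Topology MeasureTheory
open scoped ContDiff InnerProductSpace

namespace Vale.Agent.P242.H607

/-- the space `ℝⁿ` -/
abbrev E (n : ℕ) : Type := EuclideanSpace ℝ (Fin n)

/-- the Laplacian of a function on `ℝⁿ` -/
noncomputable def lapE {n : ℕ} (φ : E n → ℝ) (z : E n) : ℝ :=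
  ∑ i, fderiv ℝ (fderiv ℝ φ) z (EuclideanSpace.single i 1) (EuclideanSpace.single i 1)

section radial

variable {n : ℕ}

/-- bump on the real line: `1` on `[4,9]`, supported in `[1,12]` -/
noncomputable def bb : ContDiffBump (13 / 2 : ℝ) := ⟨5 / 2, 11 / 2, by norm_num, by norm_num⟩

theorem bb_cont : ContDiff ℝ ∞ (bb : ℝ → ℝ) := bb.contDiff

theorem bb_nonneg (t : ℝ) : 0 ≤ bb t := bb.nonneg

theorem bb_one {t : ℝ} (h1 : 4 ≤ t) (h2 : t ≤ 9) : bb t = 1 := by
  refine bb.one_of_mem_closedBall ?_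
  show t ∈ closedBall (13 / 2 : ℝ) (5 / 2)
  rw [Real.closedBall_eq_Icc]
  constructor <;> linarith

theorem bb_zero {t : ℝ} (h : 12 ≤ t) : bb t = 0 := by
  refine bb.zero_of_le_dist ?_
  show 11 / 2 ≤ dist t (13 / 2)
  rw [Real.dist_eq, abs_of_nonneg (by linarith)]
  linarith

/-- `q(t) = ∫_t^12 bb` -/
noncomputable def qq (t : ℝ) : ℝ := ∫ s in t..12, bb s

theorem qq_deriv (t : ℝ) : HasDerivAt qq (-bb t) t := by
  have h := intervalIntegral.integral_hasDerivAt_left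
    (bb_cont.continuous.intervalIntegrable t 12)
    (bb_cont.continuous.stronglyMeasurableAtFilter _ _) bb_cont.continuous.continuousAt
  exact h

theorem qq_cont : ContDiff ℝ ∞ qq := by
  rw [contDiff_infty_iff_deriv]
  refine ⟨fun t => (qq_deriv t).differentiableAt, ?_⟩
  have : deriv qq = fun t => -bb t := funext fun t => (qq_deriv t).deriv
  rw [this]
  exact bb_cont.neg

theorem qq_nonneg {t : ℝ} (h : t ≤ 12) : 0 ≤ qq t :=
  intervalIntegral.integral_nonneg h fun s _ => bb_nonneg s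

theorem qq_zero {t : ℝ} (h : 12 ≤ t) : qq t = 0 := by
  unfold qq
  rw [intervalIntegral.integral_symm, neg_eq_zero]
  refine intervalIntegral.integral_zero_ae (Eventually.of_forall fun s hs => ?_)
  rw [uIoc_of_le h] at hs
  exact bb_zero hs.1.le

/-- `G = F'` -/
noncomputable def GG (n : ℕ) (t : ℝ) : ℝ :=
  -(Real.smoothTransition (2 * t - 1) * (t ^ (-(n : ℝ) / 2) * qq t))

theorem GG_near_zero {t : ℝ} (h : t ≤ 1 / 2) : GG n t = 0 := by
  unfold GG
  rw [Real.smoothTransition.zero_of_nonpos (by linarith)]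
  ring

theorem GG_zero {t : ℝ} (h : 12 ≤ t) : GG n t = 0 := by
  unfold GG
  rw [qq_zero h]
  ring

theorem GG_cont : ContDiff ℝ ∞ (GG n) := by
  rw [contDiff_iff_contDiffAt]
  intro t
  rcases lt_or_ge t (1 / 2) with ht | ht
  · have h1 : GG n =ᶠ[𝓝 t] fun _ => 0 := by
      filter_upwards [Iio_mem_nhds ht] with s hs
      exact GG_near_zero (le_of_lt hs)
    exact contDiffAt_const.congr_of_eventuallyEq h1
  · have ht0 : 0 < t := by linarith
    unfold GG
    have h1 : ContDiffAt ℝ ∞ (fun s : ℝ => Real.smoothTransition (2 * s - 1)) t :=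
      (Real.smoothTransition.contDiff.comp
        ((contDiff_const.mul contDiff_id).sub contDiff_const)).contDiffAt
    have h2 : ContDiffAt ℝ ∞ (fun s : ℝ => s ^ (-(n : ℝ) / 2)) t :=
      Real.contDiffAt_rpow_const_of_ne ht0.ne'
    exact (h1.mul (h2.mul qq_cont.contDiffAt)).neg

theorem GG_deriv {t : ℝ} (ht : 1 < t) :
    4 * t * deriv (GG n) t + 2 * n * GG n t = 4 * t ^ (1 - (n : ℝ) / 2) * bb t := by
  have ht0 : 0 < t := by linarith
  have h1 : GG n =ᶠ[𝓝 t] fun s => -(s ^ (-(n : ℝ) / 2) * qq s) := by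
    filter_upwards [Ioi_mem_nhds ht] with s hs
    unfold GG
    rw [Real.smoothTransition.one_of_one_le (by have : (1 : ℝ) < s := hs; linarith), one_mul]
  have h2 : HasDerivAt (fun s : ℝ => -(s ^ (-(n : ℝ) / 2) * qq s))
      (-((-(n : ℝ) / 2) * t ^ (-(n : ℝ) / 2 - 1) * qq t + t ^ (-(n : ℝ) / 2) * (-bb t))) t :=
    ((Real.hasDerivAt_rpow_const (Or.inl ht0.ne')).mul (qq_deriv t)).neg
  rw [(h1.deriv_eq.trans h2.deriv), h1.eq_of_nhds]
  have e1 : t ^ (-(n : ℝ) / 2 - 1) = t ^ (-(n : ℝ) / 2) / t := by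
    rw [Real.rpow_sub_one ht0.ne']
  have e2 : t ^ (1 - (n : ℝ) / 2) = t * t ^ (-(n : ℝ) / 2) := by
    rw [show (1 - (n : ℝ) / 2) = 1 + (-(n : ℝ) / 2) by ring, Real.rpow_add ht0, Real.rpow_one]
  rw [e1, e2]
  field_simp
  ring

theorem GG_deriv_nonneg {t : ℝ} (ht : 1 ≤ t) : 0 ≤ 4 * t * deriv (GG n) t + 2 * n * GG n t := by
  have hc : Continuous fun t : ℝ => 4 * t * deriv (GG n) t + 2 * n * GG n t := by
    have h1 := (contDiff_infty_iff_deriv.1 (GG_cont (n := n))).2.continuous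
    have h2 := (GG_cont (n := n)).continuous
    fun_prop
  have hcl : IsClosed {t : ℝ | 0 ≤ 4 * t * deriv (GG n) t + 2 * n * GG n t} :=
    isClosed_le continuous_const hc
  have hsub : Ioi (1 : ℝ) ⊆ {t : ℝ | 0 ≤ 4 * t * deriv (GG n) t + 2 * n * GG n t} := by
    intro s hs
    have hs1 : (1 : ℝ) < s := hs
    rw [mem_ofPred_eq, GG_deriv hs1]
    have : 0 ≤ s ^ (1 - (n : ℝ) / 2) := Real.rpow_nonneg (by linarith) _
    have := bb_nonneg s
    positivity
  have := hcl.closure_subset_iff.2 hsub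
  rw [closure_Ioi] at this
  exact this ht

theorem GG_deriv_pos {t : ℝ} (h1 : 4 ≤ t) (h2 : t ≤ 9) :
    4 * ((3 : ℝ) ^ n)⁻¹ ≤ 4 * t * deriv (GG n) t + 2 * n * GG n t := by
  rw [GG_deriv (by linarith), bb_one h1 h2, mul_one]
  have ht0 : 0 < t := by linarith
  have e2 : t ^ (1 - (n : ℝ) / 2) = t * t ^ (-(n : ℝ) / 2) := by
    rw [show (1 - (n : ℝ) / 2) = 1 + (-(n : ℝ) / 2) by ring, Real.rpow_add ht0, Real.rpow_one]
  have e3 : (9 : ℝ) ^ (-(n : ℝ) / 2) ≤ t ^ (-(n : ℝ) / 2) := by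
    refine Real.rpow_le_rpow_of_nonpos ht0 h2 ?_
    have : (0 : ℝ) ≤ n := Nat.cast_nonneg n
    linarith
  have e4 : (9 : ℝ) ^ (-(n : ℝ) / 2) = ((3 : ℝ) ^ n)⁻¹ := by
    rw [show (9 : ℝ) = 3 ^ (2 : ℝ) by norm_num, ← Real.rpow_mul (by norm_num),
      show (2 : ℝ) * (-(n : ℝ) / 2) = -(n : ℝ) by ring, Real.rpow_neg (by norm_num),
      Real.rpow_natCast]
  rw [e4] at e3
  rw [e2]
  have e5 : 0 < ((3 : ℝ) ^ n)⁻¹ := by positivity
  have e6 : 1 * ((3 : ℝ) ^ n)⁻¹ ≤ t * t ^ (-(n : ℝ) / 2) := by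
    exact mul_le_mul (by linarith) e3 e5.le ht0.le
  linarith

/-- `F(t) = -∫_t^12 G` -/
noncomputable def FF (n : ℕ) (t : ℝ) : ℝ := -∫ s in t..12, GG n s

theorem FF_deriv (t : ℝ) : HasDerivAt (FF n) (GG n t) t := by
  have h := intervalIntegral.integral_hasDerivAt_left
    ((GG_cont (n := n)).continuous.intervalIntegrable t 12)
    ((GG_cont (n := n)).continuous.stronglyMeasurableAtFilter _ _)
    (GG_cont (n := n)).continuous.continuousAt
  have h2 := h.neg
  rw [neg_neg] at h2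
  exact h2

theorem FF_cont : ContDiff ℝ ∞ (FF n) := by
  rw [contDiff_infty_iff_deriv]
  refine ⟨fun t => (FF_deriv t).differentiableAt, ?_⟩
  have : deriv (FF n) = GG n := funext fun t => (FF_deriv t).deriv
  rw [this]
  exact GG_cont

theorem FF_zero {t : ℝ} (h : 12 ≤ t) : FF n t = 0 := by
  unfold FF
  rw [intervalIntegral.integral_symm, neg_neg]
  refine intervalIntegral.integral_zero_ae (Eventually.of_forall fun s hs => ?_)
  rw [uIoc_of_le h] at hs
  exact GG_zero hs.1.le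

/-- the radial test function -/
noncomputable def ph (n : ℕ) (y : E n) : ℝ := FF n (‖y‖ ^ 2)

theorem ph_cont : ContDiff ℝ ∞ (ph n) := FF_cont.comp (contDiff_norm_sq ℝ)

theorem ph_zero {y : E n} (h : 4 ≤ ‖y‖) : ph n y = 0 := by
  unfold ph
  apply FF_zero
  nlinarith

theorem ph_tsupport : tsupport (ph n) ⊆ closedBall 0 4 := by
  refine closure_minimal ?_ isClosed_closedBall
  intro y hy
  rw [mem_closedBall_zero_iff]
  by_contra h
  push Not at h
  exact hy (ph_zero h.le)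

theorem ph_hasCompactSupport : HasCompactSupport (ph n) :=
  HasCompactSupport.of_support_subset_isCompact (isCompact_closedBall 0 4)
    ((subset_tsupport _).trans ph_tsupport)

/-- the inner product as a bilinear map -/
noncomputable def BI (n : ℕ) : E n →L[ℝ] E n →L[ℝ] ℝ :=
  (innerₗ (E n)).mkContinuous₂ 1 fun x y => by
    rw [one_mul]
    exact norm_inner_le_norm x y

@[simp] theorem BI_apply (x y : E n) : BI n x y = ⟪x, y⟫_ℝ := rfl

theorem ph_fderiv (y : E n) : HasFDerivAt (ph n) ((2 * GG n (‖y‖ ^ 2)) • BI n y) y := by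
  have h1 : HasFDerivAt (fun y : E n => ‖y‖ ^ 2) (2 • innerSL ℝ y) y :=
    (hasStrictFDerivAt_norm_sq y).hasFDerivAt
  have h2 := (FF_deriv (n := n) (‖y‖ ^ 2)).comp_hasFDerivAt y h1
  refine (h2.congr_fderiv ?_ : HasFDerivAt (fun y : E n => FF n (‖y‖ ^ 2)) _ y)
  refine ContinuousLinearMap.ext fun v => ?_
  simp [BI_apply]
  ring

theorem ph_fderiv2 (y : E n) : HasFDerivAt (fderiv ℝ (ph n))
    ((4 * deriv (GG n) (‖y‖ ^ 2)) • (BI n y).smulRight (BI n y) +
      (2 * GG n (‖y‖ ^ 2)) • BI n) y := by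
  have h0 : fderiv ℝ (ph n) = fun y => (2 * GG n (‖y‖ ^ 2)) • BI n y :=
    funext fun y => (ph_fderiv y).fderiv
  rw [h0]
  have h1 : HasFDerivAt (fun y : E n => ‖y‖ ^ 2) (2 • innerSL ℝ y) y :=
    (hasStrictFDerivAt_norm_sq y).hasFDerivAt
  have h2 : HasDerivAt (GG n) (deriv (GG n) (‖y‖ ^ 2)) (‖y‖ ^ 2) :=
    ((contDiff_infty_iff_deriv.1 GG_cont).1 _).hasDerivAt
  have h3 := (h2.comp_hasFDerivAt y h1).const_mul (2 : ℝ)
  have h4 : HasFDerivAt (fun y : E n => BI n y) (BI n) y := (BI n).hasFDerivAt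
  have h5 := h3.smul h4
  refine h5.congr_fderiv ?_
  refine ContinuousLinearMap.ext fun v => ContinuousLinearMap.ext fun w => ?_
  simp [BI_apply]
  ring

theorem lap_ph (y : E n) : lapE (ph n) y =
    4 * ‖y‖ ^ 2 * deriv (GG n) (‖y‖ ^ 2) + 2 * n * GG n (‖y‖ ^ 2) := by
  unfold lapE
  rw [(ph_fderiv2 y).fderiv]
  simp only [ContinuousLinearMap.add_apply, ContinuousLinearMap.smul_apply,
    ContinuousLinearMap.smulRight_apply, BI_apply, smul_eq_mul,
    EuclideanSpace.inner_single_right, conj_trivial, one_mul]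
  rw [Finset.sum_add_distrib]
  have h1 : ∑ i, 4 * deriv (GG n) (‖y‖ ^ 2) * (y i * y i) =
      4 * ‖y‖ ^ 2 * deriv (GG n) (‖y‖ ^ 2) := by
    rw [← Finset.mul_sum, EuclideanSpace.norm_sq_eq]
    simp only [Real.norm_eq_abs, sq_abs]
    rw [Finset.sum_congr rfl fun i _ => (sq (y i)).symm]
    ring
  rw [h1]
  congr 1
  simp
  ring

end radial

end Vale.Agent.P242.H607
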