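import Vale.Agent.P242.H607.Surj

/-! P242, helper607 (package VOL-SURJ): the image of an almost splitting map has almost full
measure. -/

set_option linter.all false

open Set Metric Filter Topology MeasureTheory
open scoped ContDiff InnerProductSpace

namespace Vale.Agent.P242.H607

universe u

variable {n : ℕ}

/-- The covering argument. -/
theorem holes_aux {X : Type u} [MetricSpace X] [MeasurableSpace X] [BorelSpace X]
    {m lam : Measure X} {u : X → E n} {B : Set X} {V V' : Set (E n)} {σ v0 : ℝ}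
    (hB : IsClosed B) (hBc : IsPreconnected B) (hmB : m B ≠ ⊤) (hu : ContinuousOn u B)
    (hlip : ∀ x ∈ B, ∀ y ∈ B, dist (u x) (u y) ≤ 2 * dist x y)
    (hL : LapRad m lam u B V) (hσ : 0 < σ) (hv0 : 0 < v0)
    (hV : ∀ z ∈ V', closedBall z (4 * σ) ⊆ V)
    (hnear : ∀ z ∈ V', ∃ x ∈ B, dist (u x) z < σ)
    (hfar : ∀ z ∈ V', ∃ x ∈ B, 4 * σ ≤ dist (u x) z)
    (hball : ∀ x ∈ B, u x ∈ V → ∀ t, 0 < t → t ≤ σ →
      ball x t ⊆ B ∧ ENNReal.ofReal (v0 * t ^ n) ≤ m (ball x t))
    {z : E n} (hz : z ∈ V' \ closure (u '' B)) :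
    0 < infDist z (u '' B) ∧ infDist z (u '' B) ≤ σ ∧
      4 * ((3 : ℝ) ^ n)⁻¹ * (v0 * (infDist z (u '' B) / 4) ^ n) ≤
      (lam (B ∩ u ⁻¹' closedBall z (4 * infDist z (u '' B)))).toReal := by
  obtain ⟨x1, hx1, hd1⟩ := hnear z hz.1
  obtain ⟨x2, hx2, hd2⟩ := hfar z hz.1
  have hne : (u '' B).Nonempty := ⟨u x1, mem_image_of_mem u hx1⟩
  set s := infDist z (u '' B) with hs
  have hs0 : 0 < s := (infDist_pos_iff_notMem_closure hne).1 hz.2
  have hle : ∀ x ∈ B, s ≤ dist (u x) z := fun x hx => by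
    rw [dist_comm]
    exact infDist_le_dist_of_mem (mem_image_of_mem u hx)
  have hsσ : s ≤ σ := (hle x1 hx1).trans hd1.le
  refine ⟨hs0, hsσ, ?_⟩
  obtain ⟨y0, ⟨x0, hx0, rfl⟩, hd0⟩ := (infDist_lt_iff hne).1
    (show infDist z (u '' B) < 5 / 2 * s by rw [← hs]; linarith)
  have hcd : ContinuousOn (fun x => dist (u x) z) B := by fun_prop
  have hiv := hBc.intermediate_value hx0 hx2 hcd
  obtain ⟨x', hx', hd'⟩ := hiv (show (5 / 2 * s) ∈ Icc (dist (u x0) z) (dist (u x2) z) from
    ⟨by rw [dist_comm]; exact hd0.le, by linarith⟩)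
  have hd' : dist (u x') z = 5 / 2 * s := hd'
  have hVx : u x' ∈ V := hV z hz.1 (by rw [mem_closedBall, hd']; linarith)
  obtain ⟨hb1, hb2⟩ := hball x' hx' hVx (s / 4) (by positivity) (by linarith)
  exact one_hole hB hmB hu hlip hL hs0
    ((closedBall_subset_closedBall (by linarith)).trans (hV z hz.1)) hle hx' hd' hb1 hb2

/-- **Holes have small measure.** -/
theorem holes (n : ℕ) : ∃ C : ℝ, 0 < C ∧
    ∀ {X : Type u} [MetricSpace X] [MeasurableSpace X] [BorelSpace X]
    (m lam : Measure X) (u : X → E n) (B : Set X) (V V' : Set (E n)) (σ v0 : ℝ)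
    (_ : IsClosed B) (_ : IsPreconnected B) (_ : m B ≠ ⊤) (_ : lam B ≠ ⊤) (_ : ContinuousOn u B)
    (_ : ∀ x ∈ B, ∀ y ∈ B, dist (u x) (u y) ≤ 2 * dist x y)
    (_ : LapRad m lam u B V) (_ : 0 < σ) (_ : 0 < v0)
    (_ : ∀ z ∈ V', closedBall z (4 * σ) ⊆ V)
    (_ : ∀ z ∈ V', ∃ x ∈ B, dist (u x) z < σ)
    (_ : ∀ z ∈ V', ∃ x ∈ B, 4 * σ ≤ dist (u x) z)
    (_ : ∀ x ∈ B, u x ∈ V → ∀ t, 0 < t → t ≤ σ →
      ball x t ⊆ B ∧ ENNReal.ofReal (v0 * t ^ n) ≤ m (ball x t)),
    volume (V' \ closure (u '' B)) ≤ ENNReal.ofReal (C / v0) * lam B := by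
  set om : ℝ := (volume (ball (0 : E n) 1)).toReal with hom
  have homtop : volume (ball (0 : E n) 1) ≠ ⊤ := measure_ball_lt_top.ne
  have hom0 : 0 < om := ENNReal.toReal_pos
    (measure_ball_pos volume (0 : E n) one_pos).ne' homtop
  refine ⟨om * 240 ^ n / 4, by positivity, ?_⟩
  intro X _ _ _ m lam u B V V' σ v0 hB hBc hmB hlB hu hlip hL hσ hv0 hV hnear hfar hball
  have key := fun z hz => holes_aux hB hBc hmB hu hlip hL hσ hv0 hV hnear hfar hball
    (z := z) hz
  set S := V' \ closure (u '' B) with hS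
  obtain ⟨T, hTS, hdisj, hcov⟩ := Vitali.exists_disjoint_subfamily_covering_enlargement_closedBall
    S (fun z : E n => z) (fun z => 4 * infDist z (u '' B)) (4 * σ)
    (fun z hz => by have := (key z hz).2.1; linarith) 5 (by norm_num)
  have hTc : T.Countable := by
    refine hdisj.countable_of_nonempty_interior fun z hz => ?_
    have h0 := (key z (hTS hz)).1
    refine ⟨z, ?_⟩
    exact ball_subset_interior_closedBall (mem_ball_self (by positivity))
  have hsub : S ⊆ ⋃ z ∈ T, closedBall z (5 * (4 * infDist z (u '' B))) := by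
    intro z hz
    obtain ⟨b, hb, hzb⟩ := hcov z hz
    have h0 := (key z hz).1
    refine mem_iUnion₂.2 ⟨b, hb, hzb (mem_closedBall_self (by positivity))⟩
  have hmeas : ∀ z ∈ T, MeasurableSet (B ∩ u ⁻¹' closedBall z (4 * infDist z (u '' B))) :=
    fun z _ => (hu.preimage_isClosed_of_isClosed hB isClosed_closedBall).measurableSet
  calc volume S ≤ volume (⋃ z ∈ T, closedBall z (5 * (4 * infDist z (u '' B)))) :=
        measure_mono hsub
    _ ≤ ∑' z : T, volume (closedBall (z : E n) (5 * (4 * infDist (z : E n) (u '' B)))) :=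
        measure_biUnion_le volume hTc _
    _ ≤ ∑' z : T, ENNReal.ofReal (om * 240 ^ n / 4 / v0) *
          lam (B ∩ u ⁻¹' closedBall (z : E n) (4 * infDist (z : E n) (u '' B))) := by
        refine ENNReal.tsum_le_tsum fun z => ?_
        obtain ⟨h0, h1, h2⟩ := key z (hTS z.2)
        set s := infDist (z : E n) (u '' B)
        rw [Measure.addHaar_closedBall volume _ (by positivity), finrank_euclideanSpace,
          Fintype.card_fin, ← ENNReal.ofReal_toReal homtop, ← hom,
          ← ENNReal.ofReal_mul (by positivity)]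
        have hfin : lam (B ∩ u ⁻¹' closedBall (z : E n) (4 * s)) ≠ ⊤ :=
          ne_top_of_le_ne_top hlB (measure_mono inter_subset_left)
        rw [← ENNReal.ofReal_toReal hfin, ← ENNReal.ofReal_mul (by positivity)]
        refine ENNReal.ofReal_le_ofReal ?_
        set L := (lam (B ∩ u ⁻¹' closedBall (z : E n) (4 * s))).toReal
        have e1 : (s / 4) ^ n ≤ 3 ^ n * L / (4 * v0) := by
          rw [le_div_iff₀ (by positivity)]
          have h3 : 4 * ((3 : ℝ) ^ n)⁻¹ * (v0 * (s / 4) ^ n) * 3 ^ n ≤ L * 3 ^ n :=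
            mul_le_mul_of_nonneg_right h2 (by positivity)
          have h4 : 4 * ((3 : ℝ) ^ n)⁻¹ * (v0 * (s / 4) ^ n) * 3 ^ n =
              4 * (v0 * (s / 4) ^ n) := by
            field_simp
          rw [h4] at h3
          linarith
        have e2 : (5 * (4 * s)) ^ n = 80 ^ n * (s / 4) ^ n := by
          rw [← mul_pow]
          congr 1
          ring
        have e3 : (240 : ℝ) ^ n = 80 ^ n * 3 ^ n := by
          rw [← mul_pow]
          norm_num
        rw [e2, e3]
        calc 80 ^ n * (s / 4) ^ n * om ≤ 80 ^ n * (3 ^ n * L / (4 * v0)) * om := by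
              gcongr
          _ = om * (80 ^ n * 3 ^ n) / 4 / v0 * L := by
              field_simp
    _ = ENNReal.ofReal (om * 240 ^ n / 4 / v0) * ∑' z : T,
          lam (B ∩ u ⁻¹' closedBall (z : E n) (4 * infDist (z : E n) (u '' B))) :=
        ENNReal.tsum_mul_left
    _ ≤ ENNReal.ofReal (om * 240 ^ n / 4 / v0) * lam B := by
        gcongr
        rw [← measure_biUnion hTc ?_ hmeas]
        · exact measure_mono (iUnion₂_subset fun z _ => inter_subset_left)
        · intro a ha b hb hab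
          have h := hdisj ha hb hab
          exact (h.preimage u).mono inter_subset_right inter_subset_right

end Vale.Agent.P242.H607
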