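import Vale.Agent.P242.H607.PL
import Vale.Agent.P242.H607.Dens

/-! P242, helper607 (package VOL-ISO): isodiametric inequality and the Hausdorff measure of a
Euclidean ball. -/

open MeasureTheory Measure Metric Set Filter Topology Module
open scoped ENNReal NNReal

namespace Vale.Agent.P242.H607

/-- Isodiametric inequality in `EuclideanSpace`. -/
theorem isodiametric {n : ℕ} (A : Set (EuclideanSpace ℝ (Fin n))) {d : ℝ} (hd : 0 ≤ d)
    (hA : ediam A ≤ ENNReal.ofReal d) :
    volume A ≤ volume (closedBall (0 : EuclideanSpace ℝ (Fin n)) (d / 2)) := by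
  set F := closure A with hF
  have hFc : IsClosed F := isClosed_closure
  have hFd : ∀ x ∈ F, ∀ y ∈ F, dist x y ≤ d := by
    intro x hx y hy
    have h1 : edist x y ≤ ediam F := edist_le_ediam_of_mem hx hy
    rw [hF, ediam_closure] at h1
    have h2 := h1.trans hA
    rwa [edist_dist, ENNReal.ofReal_le_ofReal_iff hd] at h2
  refine (measure_mono subset_closure).trans ?_
  have hm : MeasurableSet F := hFc.measurableSet
  have key := PL.prekopa_leindler (F.indicator 1) ((-F).indicator 1)
    ((closedBall (0 : EuclideanSpace ℝ (Fin n)) (d / 2)).indicator 1)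
    (measurable_one.indicator hm) (measurable_one.indicator hm.neg)
    (measurable_one.indicator isClosed_closedBall.measurableSet) ?_
  · rw [lintegral_indicator_one hm, lintegral_indicator_one hm.neg,
      lintegral_indicator_one isClosed_closedBall.measurableSet, measure_neg, ← sq] at key
    exact (ENNReal.pow_le_pow_left_iff two_ne_zero).1 key
  · intro x y
    by_cases hx : x ∈ F
    · by_cases hy : y ∈ -F
      · have h1 : (2 : ℝ)⁻¹ • (x + y) ∈ closedBall (0 : EuclideanSpace ℝ (Fin n)) (d / 2) := by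
          rw [mem_closedBall_zero_iff, norm_smul]
          have h2 := hFd x hx (-y) hy
          rw [dist_eq_norm, sub_neg_eq_add] at h2
          rw [Real.norm_of_nonneg (by norm_num)]
          linarith
        rw [indicator_of_mem h1, indicator_of_mem hx, indicator_of_mem hy]
        simp
      · rw [indicator_of_notMem hy]
        simp
    · rw [indicator_of_notMem hx]
      simp

/-- The normalised volume `c⁻¹ (2^n) vol` is at most `μH[n]`. -/
theorem ofReal_le_hausdorff {n : ℕ} {r : ℝ} (hr : 0 ≤ r)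
    (x : EuclideanSpace ℝ (Fin n)) :
    ENNReal.ofReal ((2 * r) ^ n) ≤ μH[(n : ℝ)] (closedBall x r) := by
  set c : ℝ≥0∞ := volume (closedBall (0 : EuclideanSpace ℝ (Fin n)) 1) with hc
  have hc0 : c ≠ 0 := by
    rw [hc]
    exact (measure_closedBall_pos _ _ one_pos).ne'
  have hct : c ≠ ∞ := by
    rw [hc]
    exact measure_closedBall_lt_top.ne
  have hball : ∀ (y : EuclideanSpace ℝ (Fin n)) (s : ℝ), 0 ≤ s →
      volume (closedBall y s) = ENNReal.ofReal (s ^ n) * c := by
    intro y s hs
    rw [Measure.addHaar_closedBall' _ _ hs, finrank_euclideanSpace_fin, hc]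
  set μ : Measure (EuclideanSpace ℝ (Fin n)) := (ENNReal.ofReal (2 ^ n) * c⁻¹) • volume with hμ
  have hle : μ ≤ μH[(n : ℝ)] := by
    refine le_hausdorffMeasure (n : ℝ) μ 1 one_pos fun s hs => ?_
    set d : ℝ := (ediam s).toReal with hd
    have hdt : ediam s ≠ ∞ := ne_top_of_le_ne_top ENNReal.one_ne_top hs
    have hd0 : 0 ≤ d := ENNReal.toReal_nonneg
    have hds : ediam s = ENNReal.ofReal d := (ENNReal.ofReal_toReal hdt).symm
    have h1 := isodiametric s hd0 hds.le
    rw [hball _ _ (by positivity)] at h1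
    rw [hμ, Measure.smul_apply, smul_eq_mul, ENNReal.rpow_natCast, hds]
    calc ENNReal.ofReal (2 ^ n) * c⁻¹ * volume s
        ≤ ENNReal.ofReal (2 ^ n) * c⁻¹ * (ENNReal.ofReal ((d / 2) ^ n) * c) := by gcongr
      _ = ENNReal.ofReal (2 ^ n) * ENNReal.ofReal ((d / 2) ^ n) * (c⁻¹ * c) := by ring
      _ = ENNReal.ofReal d ^ n := by
        rw [ENNReal.inv_mul_cancel hc0 hct, mul_one, ← ENNReal.ofReal_mul (by positivity),
          ← mul_pow, ← ENNReal.ofReal_pow hd0]
        congr 2
        ring
  calc ENNReal.ofReal ((2 * r) ^ n) = μ (closedBall x r) := by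
        rw [hμ, Measure.smul_apply, smul_eq_mul, hball _ _ hr]
        calc ENNReal.ofReal ((2 * r) ^ n)
            = ENNReal.ofReal (2 ^ n) * ENNReal.ofReal (r ^ n) * 1 := by
              rw [mul_one, ← ENNReal.ofReal_mul (by positivity), mul_pow]
          _ = ENNReal.ofReal (2 ^ n) * ENNReal.ofReal (r ^ n) * (c⁻¹ * c) := by
              rw [ENNReal.inv_mul_cancel hc0 hct]
          _ = _ := by ring
    _ ≤ μH[(n : ℝ)] (closedBall x r) := hle _

theorem haar_hausdorff (n : ℕ) :
    IsAddHaarMeasure (μH[(n : ℝ)] : Measure (EuclideanSpace ℝ (Fin n))) := by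
  have h := isAddHaarMeasure_hausdorffMeasure (E := EuclideanSpace ℝ (Fin n))
  rwa [finrank_euclideanSpace_fin] at h

/-- `μH[n]` of a Euclidean ball of radius `r` is `(2 r)^n`. -/
theorem hausdorff_closedBall {n : ℕ} (hn : 0 < n) {r : ℝ} (hr : 0 ≤ r)
    (x : EuclideanSpace ℝ (Fin n)) :
    μH[(n : ℝ)] (closedBall x r) = ENNReal.ofReal ((2 * r) ^ n) := by
  have := haar_hausdorff n
  refine le_antisymm ?_ (ofReal_le_hausdorff hr x)
  set c : ℝ≥0∞ := μH[(n : ℝ)] (closedBall (0 : EuclideanSpace ℝ (Fin n)) 1) with hc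
  have hct : c ≠ ∞ := by
    rw [hc]
    exact measure_closedBall_lt_top.ne
  have hball : ∀ (y : EuclideanSpace ℝ (Fin n)) (s : ℝ), 0 ≤ s →
      μH[(n : ℝ)] (closedBall y s) = ENNReal.ofReal (s ^ n) * c := by
    intro y s hs
    rw [Measure.addHaar_closedBall' _ _ hs, finrank_euclideanSpace_fin, hc]
  have hn' : (0 : ℝ) < n := by exact_mod_cast hn
  have hne : Nontrivial (EuclideanSpace ℝ (Fin n)) := by
    have : Nonempty (Fin n) := ⟨⟨0, hn⟩⟩
    infer_instance
  have h1 := ae_upper_density (X := EuclideanSpace ℝ (Fin n)) hn' (ι := ℕ)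
    (fun i => closedBall 0 i) (fun y => ?_) (fun i => measure_closedBall_lt_top.ne) (fun i => ?_)
  · obtain ⟨y, hy⟩ := h1.exists
    have hcle : c ≤ ENNReal.ofReal (2 ^ n) := by
      have hcr : c = ENNReal.ofReal c.toReal := (ENNReal.ofReal_toReal hct).symm
      rw [hcr]
      refine ENNReal.ofReal_le_ofReal (le_of_forall_pos_le_add fun e he => ?_)
      obtain ⟨ε, hε, h⟩ := hy (e / 2 ^ n) (by positivity)
      have h2 := h ε hε le_rfl
      rw [hball _ _ hε.le, hcr, ← ENNReal.ofReal_mul (by positivity), Real.rpow_natCast,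
        ENNReal.ofReal_le_ofReal_iff (by positivity)] at h2
      have h3 : ε ^ n * c.toReal ≤ ε ^ n * (2 ^ n + e) := by
        refine h2.trans (le_of_eq ?_)
        rw [mul_pow]
        field_simp
      exact le_of_mul_le_mul_left h3 (by positivity)
    rw [hball _ _ hr]
    calc ENNReal.ofReal (r ^ n) * c ≤ ENNReal.ofReal (r ^ n) * ENNReal.ofReal (2 ^ n) := by gcongr
      _ = ENNReal.ofReal ((2 * r) ^ n) := by
        rw [← ENNReal.ofReal_mul (by positivity), mul_pow, mul_comm]
  · obtain ⟨i, hi⟩ := exists_nat_ge ‖y‖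
    exact ⟨i, by simpa using hi⟩
  · refine ⟨3 ^ n, 1, one_pos, fun y _ r hr _ => ?_⟩
    rw [hball _ _ (by positivity), hball _ _ hr.le, mul_pow, ENNReal.ofReal_mul (by positivity),
      mul_assoc]
    gcongr
    rw [ENNReal.ofReal_pow (by norm_num)]
    simp

end Vale.Agent.P242.H607
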