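import Vale.Agent.P242.H607.VolLow
import Vale.Agent.P233.H589.Lat

/-! P242, helper607 (package A-VOL, part (a)): the hypothesis `LapRad` for a map whose components
are test functions with bounded Laplacian. -/

set_option linter.all false

open Set Metric Filter Topology MeasureTheory
open scoped ContDiff InnerProductSpace

namespace Vale.Agent.P242.H607

universe u

open Vale.Agent.P233

/-! ### Bounds for the radial profile -/

section prof

variable {n : ℕ}

theorem GG_bound (n : ℕ) : ∃ K : ℝ, 1 ≤ K ∧ (∀ t, |GG n t| ≤ K) ∧ ∀ t, |deriv (GG n) t| ≤ K := by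
  have h0 : ∀ t, t ≤ 1 / 2 → GG n t = 0 := fun t ht => GG_near_zero ht
  have h1 : ∀ t, 12 ≤ t → GG n t = 0 := fun t ht => GG_zero ht
  have hc := (GG_cont (n := n)).continuous
  have hc1 := (contDiff_infty_iff_deriv.1 (GG_cont (n := n))).2.continuous
  have hs : HasCompactSupport (GG n) := by
    refine HasCompactSupport.of_support_subset_isCompact (isCompact_Icc (a := (1 / 2 : ℝ))
      (b := 12)) fun t ht => ?_
    by_contra h
    rw [mem_Icc, not_and_or, not_le, not_le] at h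
    rcases h with h | h
    · exact ht (h0 t h.le)
    · exact ht (h1 t h.le)
  have hs1 : HasCompactSupport (deriv (GG n)) := hs.deriv
  obtain ⟨K0, hK0⟩ := hs.exists_bound_of_continuous hc
  obtain ⟨K1, hK1⟩ := hs1.exists_bound_of_continuous hc1
  exact ⟨max 1 (max K0 K1), le_max_left _ _,
    fun t => (hK0 t).trans ((le_max_left _ _).trans (le_max_right _ _)),
    fun t => (hK1 t).trans ((le_max_right _ _).trans (le_max_right _ _))⟩

theorem GG_deriv_zero {t : ℝ} (h : 12 < t) : deriv (GG n) t = 0 := by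
  have h1 : GG n =ᶠ[𝓝 t] fun _ => 0 := by
    filter_upwards [Ioi_mem_nhds h] with s hs
    exact GG_zero (le_of_lt hs)
  rw [h1.deriv_eq]
  simp

/-- the profile used for the composition -/
noncomputable def Ph (n : ℕ) (a s t : ℝ) : ℝ := FF n (s⁻¹ ^ 2 * (t + a)) - FF n (s⁻¹ ^ 2 * a)

theorem Ph_cont (a s : ℝ) : ContDiff ℝ ∞ (Ph n a s) := by
  unfold Ph
  exact (FF_cont.comp (contDiff_const.mul (contDiff_id.add contDiff_const))).sub contDiff_const

theorem Ph_zero (a s : ℝ) : Ph n a s 0 = 0 := by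
  unfold Ph
  rw [zero_add, sub_self]

theorem Ph_deriv (a s : ℝ) : deriv (Ph n a s) = fun t => s⁻¹ ^ 2 * GG n (s⁻¹ ^ 2 * (t + a)) := by
  funext t
  have h1 : HasDerivAt (fun t : ℝ => s⁻¹ ^ 2 * (t + a)) (s⁻¹ ^ 2 * 1) t :=
    ((hasDerivAt_id t).add_const a).const_mul _
  have h2 := ((FF_deriv (n := n) (s⁻¹ ^ 2 * (t + a))).comp t h1).sub_const (FF n (s⁻¹ ^ 2 * a))
  have h3 : HasDerivAt (Ph n a s) (GG n (s⁻¹ ^ 2 * (t + a)) * (s⁻¹ ^ 2 * 1)) t := h2
  rw [h3.deriv]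
  ring

theorem Ph_deriv2 (a s t : ℝ) :
    deriv (deriv (Ph n a s)) t = s⁻¹ ^ 2 * (s⁻¹ ^ 2 * deriv (GG n) (s⁻¹ ^ 2 * (t + a))) := by
  rw [Ph_deriv]
  have h1 : HasDerivAt (fun t : ℝ => s⁻¹ ^ 2 * (t + a)) (s⁻¹ ^ 2 * 1) t :=
    ((hasDerivAt_id t).add_const a).const_mul _
  have h0 : HasDerivAt (GG n) (deriv (GG n) (s⁻¹ ^ 2 * (t + a))) (s⁻¹ ^ 2 * (t + a)) :=
    ((contDiff_infty_iff_deriv.1 GG_cont).1 _).hasDerivAt
  have h2 := (h0.comp t h1).const_mul (s⁻¹ ^ 2)
  have h3 : HasDerivAt (fun t => s⁻¹ ^ 2 * GG n (s⁻¹ ^ 2 * (t + a)))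
      (s⁻¹ ^ 2 * (deriv (GG n) (s⁻¹ ^ 2 * (t + a)) * (s⁻¹ ^ 2 * 1))) t := h2
  rw [h3.deriv]
  ring

end prof

/-! ### Quadratic functions of the components -/

section quad

variable {M : Type u} [MeasurableSpace M] {m : Measure M} {C : Calc m}

theorem quad_fn (hC : IsGamma C) {κ : ℝ} (hB : C.BEi κ) {ι : Type*} (s : Finset ι)
    {f : ι → M →ₘ[m] ℝ} (hf : ∀ i, f i ∈ C.TestI) (a : ι → ℝ) :
    ∃ G ∈ C.TestI, (∀ᵐ x ∂m, G x = ∑ i ∈ s, (f i x ^ 2 - 2 * a i * f i x)) ∧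
      (∀ᵐ x ∂m, C.lap G x = ∑ i ∈ s, (2 * (f i x - a i) * C.lap (f i) x
        + 2 * C.Γ (f i) (f i) x)) ∧
      ∀ h ∈ C.W, ∀ᵐ x ∂m, C.Γ G h x = ∑ i ∈ s, 2 * (f i x - a i) * C.Γ (f i) h x := by
  classical
  induction s using Finset.induction_on with
  | empty =>
    refine ⟨0, hC.testI_zero hB, ?_, ?_, fun h hh => ?_⟩
    · filter_upwards [zero_ae (M := M) (m := m)] with x hx
      rw [hx]; simp
    · have h1 := hC.lap_smul hB 0 (hC.test_zero hB)
      rw [zero_smul, zero_smul] at h1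
      rw [h1]
      filter_upwards [zero_ae (M := M) (m := m)] with x hx
      rw [hx]; simp
    · rw [hC.Γ_zero_left hh]
      filter_upwards [zero_ae (M := M) (m := m)] with x hx
      rw [hx]; simp
  | insert j s hj ih =>
    obtain ⟨G, hG, g1, g2, g3⟩ := ih
    have hsq := hC.testI_mul hB (hf j) (hf j)
    have hsm := hC.testI_smul hB (-2 * a j) (hf j)
    have hadd := hC.testI_add hB hsq hsm
    have fA := hC.test_A (hf j).1
    refine ⟨(f j * f j + (-2 * a j) • f j) + G, hC.testI_add hB hadd hG, ?_, ?_, fun h hh => ?_⟩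
    · filter_upwards [g1, add_ae (f j * f j + (-2 * a j) • f j) G,
        add_ae (f j * f j) ((-2 * a j) • f j), mul_ae (f j) (f j), smul_ae (f j) (-2 * a j)]
        with x b1 b2 b3 b4 b5
      rw [b2, b3, b4, b5, b1, Finset.sum_insert hj]
      ring
    · rw [hC.lap_add hB hadd.1 hG.1, hC.lap_add hB hsq.1 hsm.1, hC.lap_mul hB (hf j).1 (hf j).1,
        hC.lap_smul hB _ (hf j).1]
      filter_upwards [g2, add_ae (f j * C.lap (f j) + f j * C.lap (f j) + (2 : ℝ) • C.Γ (f j) (f j)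
          + (-2 * a j) • C.lap (f j)) (C.lap G),
        add_ae (f j * C.lap (f j) + f j * C.lap (f j) + (2 : ℝ) • C.Γ (f j) (f j))
          ((-2 * a j) • C.lap (f j)),
        add_ae (f j * C.lap (f j) + f j * C.lap (f j)) ((2 : ℝ) • C.Γ (f j) (f j)),
        add_ae (f j * C.lap (f j)) (f j * C.lap (f j)), mul_ae (f j) (C.lap (f j)),
        smul_ae (C.Γ (f j) (f j)) 2, smul_ae (C.lap (f j)) (-2 * a j)]
        with x b1 b2 b3 b4 b5 b6 b7 b8
      rw [b2, b3, b4, b5, b6, b7, b8, b1, Finset.sum_insert hj]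
      ring
    · have e : C.Γ (f j * f j + (-2 * a j) • f j + G) h =
          (f j * C.Γ (f j) h + f j * C.Γ (f j) h) + (-2 * a j) • C.Γ (f j) h + C.Γ G h := by
        rw [hC.add_left _ (hC.test_A hadd.1).1 _ (hC.test_A hG.1).1 _ hh,
          hC.add_left _ (hC.test_A hsq.1).1 _ (hC.test_A hsm.1).1 _ hh,
          hC.Γ_mul_left fA fA hh, hC.smul_left _ _ fA.1 _ hh]
      rw [e]
      filter_upwards [g3 h hh,
        add_ae ((f j * C.Γ (f j) h + f j * C.Γ (f j) h) + (-2 * a j) • C.Γ (f j) h) (C.Γ G h),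
        add_ae (f j * C.Γ (f j) h + f j * C.Γ (f j) h) ((-2 * a j) • C.Γ (f j) h),
        add_ae (f j * C.Γ (f j) h) (f j * C.Γ (f j) h), mul_ae (f j) (C.Γ (f j) h),
        smul_ae (C.Γ (f j) h) (-2 * a j)] with x b1 b2 b3 b4 b5 b6
      rw [b2, b3, b4, b5, b6, b1, Finset.sum_insert hj]
      ring

end quad

/-! ### The main estimate -/

section main

variable {M : Type u} [MeasurableSpace M] {m : Measure M}

/-- the defect of the map with components `f i` -/
noncomputable def er (C : Calc m) {n : ℕ} (f : Fin n → M →ₘ[m] ℝ) (ρ : ℝ) (x : M) : ℝ :=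
  ρ * ∑ i, |C.lap (f i) x| + ∑ i, ∑ j, |C.Γ (f i) (f j) x - if i = j then 1 else 0|

/-- pointwise algebra -/
theorem point_alg {n : ℕ} {K ρ s A A' : ℝ} (hK : 1 ≤ K) (hs : 0 < s) (hsρ : s ≤ ρ)
    (hA : |A| ≤ K) (hA' : |A'| ≤ K) {y z : E n} (hy : dist y z ≤ 4 * s) {l : Fin n → ℝ}
    {g : Fin n → Fin n → ℝ} :
    |s⁻¹ ^ 2 * (4 * ‖s⁻¹ • (y - z)‖ ^ 2 * A' + 2 * n * A) -
      (s⁻¹ ^ 2 * A * ∑ i, (2 * (y i - z i) * l i + 2 * g i i) +
        s⁻¹ ^ 2 * (s⁻¹ ^ 2 * A') * ∑ i, 2 * (y i - z i) * ∑ j, 2 * (y j - z j) * g i j)| ≤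
      s⁻¹ ^ 2 * (66 * K * (ρ * ∑ i, |l i| + ∑ i, ∑ j, |g i j - if i = j then 1 else 0|)) := by
  have hyi : ∀ i, |y i - z i| ≤ 4 * s := fun i => by
    have h1 : |(y - z) i| ≤ ‖y - z‖ := by
      rw [← Real.norm_eq_abs]
      exact PiLp.norm_apply_le (y - z) i
    rw [← dist_eq_norm] at h1
    exact h1.trans hy
  have hn : ‖s⁻¹ • (y - z)‖ ^ 2 = s⁻¹ ^ 2 * ∑ i, (y i - z i) ^ 2 := by
    rw [norm_smul, mul_pow, norm_inv, Real.norm_of_nonneg hs.le, EuclideanSpace.norm_sq_eq]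
    congr 1
    refine Finset.sum_congr rfl fun i _ => ?_
    rw [Real.norm_eq_abs, sq_abs]
    rfl
  have e1 : ∑ i, (2 * (y i - z i) * l i + 2 * g i i) =
      2 * ∑ i, (y i - z i) * l i + 2 * ∑ i, (g i i - 1) + 2 * n := by
    rw [Finset.sum_add_distrib, Finset.mul_sum, Finset.mul_sum]
    have : ∑ i : Fin n, 2 * g i i = ∑ i : Fin n, 2 * (g i i - 1) + 2 * n := by
      rw [← Finset.sum_congr rfl fun i _ => show 2 * (g i i - 1) + 2 = 2 * g i i by ring]
      rw [Finset.sum_add_distrib]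
      simp
      ring
    rw [this, ← add_assoc]
    congr 2
    exact Finset.sum_congr rfl fun i _ => by ring
  have e2 : ∑ i, 2 * (y i - z i) * ∑ j, 2 * (y j - z j) * g i j =
      4 * ∑ i, ∑ j, (y i - z i) * (y j - z j) * (g i j - if i = j then 1 else 0) +
      4 * ∑ i, (y i - z i) ^ 2 := by
    rw [Finset.mul_sum, Finset.mul_sum, ← Finset.sum_add_distrib]
    refine Finset.sum_congr rfl fun i _ => ?_
    have : ∑ j, (y i - z i) * (y j - z j) * (g i j - if i = j then 1 else 0) =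
        ∑ j, (y i - z i) * (y j - z j) * g i j - (y i - z i) ^ 2 := by
      simp only [mul_sub, Finset.sum_sub_distrib]
      congr 1
      rw [Finset.sum_eq_single i]
      · simp
        ring
      · intro j _ hj
        rw [if_neg (Ne.symm hj), mul_zero]
      · intro h
        exact absurd (Finset.mem_univ i) h
    rw [this, Finset.mul_sum]
    have e3 : ∑ j, 2 * (y i - z i) * (2 * (y j - z j) * g i j) =
        4 * ∑ j, (y i - z i) * (y j - z j) * g i j := by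
      rw [Finset.mul_sum]
      exact Finset.sum_congr rfl fun j _ => by ring
    rw [e3]
    ring
  set S1 := ∑ i, (y i - z i) * l i with hS1
  set S2 := ∑ i, (g i i - 1) with hS2
  set S3 := ∑ i, ∑ j, (y i - z i) * (y j - z j) * (g i j - if i = j then 1 else 0) with hS3
  set L := ∑ i, |l i| with hL
  set D := ∑ i, ∑ j, |g i j - if i = j then 1 else 0| with hD
  have hL0 : 0 ≤ L := Finset.sum_nonneg fun i _ => abs_nonneg _
  have hD0 : 0 ≤ D := Finset.sum_nonneg fun i _ => Finset.sum_nonneg fun j _ => abs_nonneg _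
  have b1 : |S1| ≤ 4 * s * L := by
    refine (Finset.abs_sum_le_sum_abs _ _).trans ?_
    rw [hL, Finset.mul_sum]
    refine Finset.sum_le_sum fun i _ => ?_
    rw [abs_mul]
    exact mul_le_mul_of_nonneg_right (hyi i) (abs_nonneg _)
  have b2 : |S2| ≤ D := by
    refine (Finset.abs_sum_le_sum_abs _ _).trans (Finset.sum_le_sum fun i _ => ?_)
    have h := Finset.single_le_sum (f := fun j => |g i j - if i = j then (1 : ℝ) else 0|)
      (fun j _ => abs_nonneg _) (Finset.mem_univ i)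
    simpa using h
  have b3 : |S3| ≤ 16 * s ^ 2 * D := by
    refine (Finset.abs_sum_le_sum_abs _ _).trans ?_
    rw [hD, Finset.mul_sum]
    refine Finset.sum_le_sum fun i _ => (Finset.abs_sum_le_sum_abs _ _).trans ?_
    rw [Finset.mul_sum]
    refine Finset.sum_le_sum fun j _ => ?_
    rw [abs_mul, abs_mul]
    refine mul_le_mul_of_nonneg_right ?_ (abs_nonneg _)
    calc |y i - z i| * |y j - z j| ≤ (4 * s) * (4 * s) :=
          mul_le_mul (hyi i) (hyi j) (abs_nonneg _) (by positivity)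
      _ = 16 * s ^ 2 := by ring
  rw [e1, e2, hn]
  have e4 : s⁻¹ ^ 2 * (4 * (s⁻¹ ^ 2 * ∑ i, (y i - z i) ^ 2) * A' + 2 * n * A) -
      (s⁻¹ ^ 2 * A * (2 * S1 + 2 * S2 + 2 * n) +
        s⁻¹ ^ 2 * (s⁻¹ ^ 2 * A') * (4 * S3 + 4 * ∑ i, (y i - z i) ^ 2)) =
      s⁻¹ ^ 2 * (-(A * (2 * S1 + 2 * S2)) - s⁻¹ ^ 2 * (A' * (4 * S3))) := by ring
  rw [e4, abs_mul, abs_of_nonneg (show 0 ≤ s⁻¹ ^ 2 by positivity)]
  refine mul_le_mul_of_nonneg_left ?_ (by positivity)
  have c1 : |A * (2 * S1 + 2 * S2)| ≤ K * (8 * (ρ * L) + 2 * D) := by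
    rw [abs_mul]
    refine mul_le_mul hA ?_ (abs_nonneg _) (by linarith)
    have h1 : |2 * S1 + 2 * S2| ≤ 2 * |S1| + 2 * |S2| := by
      refine (abs_add_le _ _).trans ?_
      rw [abs_mul, abs_mul, abs_two]
    have h2 : s * L ≤ ρ * L := mul_le_mul_of_nonneg_right hsρ hL0
    linarith
  have c2 : |s⁻¹ ^ 2 * (A' * (4 * S3))| ≤ K * (64 * D) := by
    rw [abs_mul, abs_of_nonneg (show 0 ≤ s⁻¹ ^ 2 by positivity), abs_mul, abs_mul]
    rw [show |(4 : ℝ)| = 4 by norm_num]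
    calc s⁻¹ ^ 2 * (|A'| * (4 * |S3|)) ≤ s⁻¹ ^ 2 * (K * (4 * (16 * s ^ 2 * D))) := by
          gcongr
      _ = K * (64 * D) := by
          field_simp
          ring
  have hρ : 0 ≤ ρ * L := mul_nonneg (by linarith) hL0
  calc |-(A * (2 * S1 + 2 * S2)) - s⁻¹ ^ 2 * (A' * (4 * S3))|
      ≤ |A * (2 * S1 + 2 * S2)| + |s⁻¹ ^ 2 * (A' * (4 * S3))| := by
        refine (abs_sub _ _).trans ?_
        rw [abs_neg]
    _ ≤ K * (8 * (ρ * L) + 2 * D) + K * (64 * D) := add_le_add c1 c2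
    _ ≤ 66 * K * (ρ * L + D) := by nlinarith

theorem tau_eq {n : ℕ} (y z : E n) (s : ℝ) :
    s⁻¹ ^ 2 * (∑ i, (y i ^ 2 - 2 * z i * y i) + ‖z‖ ^ 2) = ‖s⁻¹ • (y - z)‖ ^ 2 := by
  rw [norm_smul, mul_pow, norm_inv, Real.norm_eq_abs, inv_pow, inv_pow, sq_abs,
    EuclideanSpace.norm_sq_eq, EuclideanSpace.norm_sq_eq, ← Finset.sum_add_distrib]
  congr 1
  refine Finset.sum_congr rfl fun i _ => ?_
  rw [Real.norm_eq_abs, Real.norm_eq_abs, sq_abs, sq_abs]
  have : (y - z) i = y i - z i := rfl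
  rw [this]
  ring

/-- the composition with the radial function -/
theorem exists_comp {C : Calc m} (hC : IsGamma C) {κ : ℝ} (hB : C.BEi κ) {n : ℕ}
    {f : Fin n → M →ₘ[m] ℝ} (hf : ∀ i, f i ∈ C.TestI) {U : M → E n}
    (hU : ∀ i, ∀ᵐ x ∂m, f i x = U x i) (z : E n) (s : ℝ) :
    ∃ G ∈ C.TestI, ∃ ψ ∈ C.TestI, (∀ᵐ x ∂m, C.lap ψ x =
        s⁻¹ ^ 2 * GG n (‖s⁻¹ • (U x - z)‖ ^ 2) * ∑ i, (2 * (U x i - z i) * C.lap (f i) x
          + 2 * C.Γ (f i) (f i) x) +
        s⁻¹ ^ 2 * (s⁻¹ ^ 2 * deriv (GG n) (‖s⁻¹ • (U x - z)‖ ^ 2)) *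
          ∑ i, 2 * (U x i - z i) * ∑ j, 2 * (U x j - z j) * C.Γ (f i) (f j) x) ∧
      ∀ h ∈ C.W, ∀ᵐ x ∂m, C.Γ ψ h x =
        s⁻¹ ^ 2 * GG n (‖s⁻¹ • (U x - z)‖ ^ 2) * C.Γ G h x := by
  obtain ⟨G, hG, g1, g2, g3⟩ := quad_fn hC hB Finset.univ hf (fun i => z i)
  obtain ⟨ψ, hψ, p1, p2, p3⟩ := hC.testI_comp hB hG (Ph n (‖z‖ ^ 2) s)
    ((Ph_cont _ _).of_le (by norm_cast)) (Ph_zero _ _)
  have hUa : ∀ᵐ x ∂m, ∀ i, f i x = U x i := ae_all_iff.2 hU
  have hτ : ∀ᵐ x ∂m, s⁻¹ ^ 2 * (G x + ‖z‖ ^ 2) = ‖s⁻¹ • (U x - z)‖ ^ 2 := by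
    filter_upwards [g1, hUa] with x b1 b2
    rw [b1, ← tau_eq]
    simp only [b2]
  have hW : ∀ i, f i ∈ C.W := fun i => (hC.test_A (hf i).1).1
  have hGW : G ∈ C.W := (hC.test_A hG.1).1
  refine ⟨G, hG, ψ, hψ, ?_, fun h hh => ?_⟩
  · have g4 : ∀ᵐ x ∂m, ∀ i, C.Γ (f i) G x = ∑ j, 2 * (f j x - z j) * C.Γ (f i) (f j) x := by
      refine ae_all_iff.2 fun i => ?_
      filter_upwards [g3 (f i) (hW i)] with x b1
      rw [hC.symm _ (hW i) _ hGW, b1]
      exact Finset.sum_congr rfl fun j _ => by rw [hC.symm _ (hW i) _ (hW j)]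
    filter_upwards [p3, g2, g3 G hGW, g4, hτ, hUa] with x b1 b2 b3 b4 b5 b6
    rw [b1, b2, b3, Ph_deriv2]
    simp only [Ph_deriv, b5, b4, b6]
  · filter_upwards [p2 h hh, hτ] with x b1 b2
    rw [b1]
    simp only [Ph_deriv, b2]

/-- **The hypothesis `LapRad` for maps with components in `TestI`.** -/
theorem lapRad_of (n : ℕ) : ∃ K : ℝ, 1 ≤ K ∧
    ∀ {M : Type u} [MetricSpace M] [MeasurableSpace M] [BorelSpace M] {m : Measure M}
    {C : Calc m} (_ : IsGamma C) {κ : ℝ} (_ : C.BEi κ) {f : Fin n → M →ₘ[m] ℝ}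
    (_ : ∀ i, f i ∈ C.TestI) {U : M → E n} (_ : Measurable U)
    (_ : ∀ i, ∀ᵐ x ∂m, f i x = U x i) {B : Set M} (_ : MeasurableSet B) (_ : m B ≠ ⊤)
    {V : Set (E n)} {ρ : ℝ} (_ : ∀ z s, 0 < s → closedBall z (4 * s) ⊆ V → s ≤ ρ)
    {χ : M →ₘ[m] ℝ} (_ : χ ∈ C.W) (_ : ∀ᵐ x ∂m, x ∈ B → U x ∈ V → χ x = 1)
    (_ : ∀ᵐ x ∂m, x ∉ B → χ x = 0),
    LapRad m (m.withDensity fun x => ENNReal.ofReal (K * er C f ρ x)) U B V := by
  obtain ⟨K0, hK0, hK1, hK2⟩ := GG_bound n
  refine ⟨66 * K0, by linarith, ?_⟩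
  intro M _ _ _ m C hC κ hB f hf U hUm hU B hBm hmB V ρ hρ χ hχ h1 h0
  refine ⟨fun z s hs hV => ?_⟩
  obtain ⟨G, hG, ψ, hψ, p1, p2⟩ := exists_comp hC hB hf hU z s
  have hsρ := hρ z s hs hV
  have hGW : G ∈ C.W := (hC.test_A hG.1).1
  have hψW : ψ ∈ C.W := (hC.test_A hψ.1).1
  haveI : IsFiniteMeasure (m.restrict B) := ⟨by rw [Measure.restrict_apply_univ]; exact hmB.lt_top⟩
  -- outside of the preimage of the ball everything vanishes
  have hout : ∀ x, x ∉ U ⁻¹' closedBall z (4 * s) → 12 < ‖s⁻¹ • (U x - z)‖ ^ 2 := by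
    intro x hx
    rw [norm_smul, norm_inv, Real.norm_of_nonneg hs.le, ← dist_eq_norm, inv_mul_eq_div]
    have h2 : 4 < dist (U x) z / s := by
      rw [lt_div_iff₀ hs]
      by_contra h
      push Not at h
      exact hx h
    nlinarith
  -- the integral of the Laplacian of `ψ` vanishes
  have hzero : ∫ x in B, C.lap ψ x ∂m = 0 := by
    have e1 : I (C.Γ ψ χ) = -I (C.lap ψ * χ) := (hC.test_isLap hψ.1).2.2 χ hχ
    have e2 : I (C.Γ ψ χ) = 0 := by
      have : C.Γ ψ χ =ᵐ[m] fun _ => (0 : ℝ) := by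
        filter_upwards [p2 χ hχ, hC.Γ_level hχ hGW 1, hC.Γ_level hχ hGW 0, h1, h0]
          with x b1 b2 b3 b4 b5
        rw [b1]
        rw [hC.symm _ hχ _ hGW] at b2 b3
        by_cases hxB : x ∈ B
        · by_cases hxV : x ∈ U ⁻¹' closedBall z (4 * s)
          · rw [b2 (b4 hxB (hV hxV)), mul_zero]
          · rw [GG_zero (hout x hxV).le]
            ring
        · rw [b3 (b5 hxB), mul_zero]
      unfold I
      rw [integral_congr_ae this, integral_zero]
    have e3 : ∫ x in B, C.lap ψ x ∂m = I (C.lap ψ * χ) := by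
      rw [← integral_indicator hBm]
      refine integral_congr_ae ?_
      filter_upwards [p1, mul_ae (C.lap ψ) χ, h1, h0] with x b1 b2 b3 b4
      rw [b2]
      by_cases hxB : x ∈ B
      · rw [indicator_of_mem hxB]
        by_cases hxV : x ∈ U ⁻¹' closedBall z (4 * s)
        · rw [b3 hxB (hV hxV), mul_one]
        · rw [b1, GG_zero (hout x hxV).le, GG_deriv_zero (hout x hxV)]
          ring
      · rw [indicator_of_notMem hxB, b4 hxB, mul_zero]
    rw [e3, ← neg_eq_zero, ← e1, e2]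
  have hlap_int : IntegrableOn (fun x => C.lap ψ x) B m := by
    obtain ⟨K, hK⟩ := mem_top_iff.1 hψ.2
    refine Integrable.of_bound (C.lap ψ).aestronglyMeasurable.restrict K ?_
    exact ae_restrict_of_ae (by simpa using hK)
  have hc : Continuous (lapE (ps n z s)) := by
    have : lapE (ps n z s) = fun y => s⁻¹ ^ 2 * (4 * ‖s⁻¹ • (y - z)‖ ^ 2 *
        deriv (GG n) (‖s⁻¹ • (y - z)‖ ^ 2) + 2 * n * GG n (‖s⁻¹ • (y - z)‖ ^ 2)) := by
      funext y
      rw [lap_ps, lap_ph]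
    rw [this]
    have c1 := (GG_cont (n := n)).continuous
    have c2 := (contDiff_infty_iff_deriv.1 (GG_cont (n := n))).2.continuous
    fun_prop
  have hb : ∃ K : ℝ, ∀ y, |lapE (ps n z s) y| ≤ K := by
    have hcs : HasCompactSupport (lapE (ps n z s)) := by
      refine HasCompactSupport.of_support_subset_isCompact (isCompact_closedBall z (4 * s))
        fun y hy => ?_
      by_contra h
      refine hy ?_
      rw [lap_ps, lap_ph]
      have h3 : 12 < ‖s⁻¹ • (y - z)‖ ^ 2 := by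
        rw [norm_smul, norm_inv, Real.norm_of_nonneg hs.le, ← dist_eq_norm, inv_mul_eq_div]
        have h2 : 4 < dist y z / s := by
          rw [lt_div_iff₀ hs]
          by_contra h'
          push Not at h'
          exact h h'
        nlinarith
      rw [GG_zero h3.le, GG_deriv_zero h3]
      ring
    obtain ⟨K, hK⟩ := hcs.exists_bound_of_continuous hc
    exact ⟨K, hK⟩
  obtain ⟨Kb, hKb⟩ := hb
  have hlE_int : IntegrableOn (fun x => lapE (ps n z s) (U x)) B m := by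
    refine Integrable.of_bound (hc.measurable.comp hUm).aestronglyMeasurable Kb ?_
    exact Eventually.of_forall fun x => by rw [Real.norm_eq_abs]; exact hKb _
  set S : Set M := B ∩ U ⁻¹' closedBall z (4 * s) with hS
  have hSm : MeasurableSet S := hBm.inter (hUm measurableSet_closedBall)
  have hmS : m S ≠ ⊤ := ne_top_of_le_ne_top hmB (measure_mono inter_subset_left)
  haveI : IsFiniteMeasure (m.restrict S) := ⟨by rw [Measure.restrict_apply_univ]; exact hmS.lt_top⟩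
  have her_int : IntegrableOn (fun x => 66 * K0 * er C f ρ x) S m := by
    refine Integrable.const_mul ?_ _
    unfold er
    refine Integrable.add (Integrable.const_mul (integrable_finset_sum _ fun i _ => ?_) _)
      (integrable_finset_sum _ fun i _ => integrable_finset_sum _ fun j _ => ?_)
    · obtain ⟨K, hK⟩ := mem_top_iff.1 (hf i).2
      refine (Integrable.of_bound (C.lap (f i)).aestronglyMeasurable.restrict K ?_).abs
      exact ae_restrict_of_ae (by simpa using hK)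
    · have h2 : Integrable (fun x => C.Γ (f i) (f j) x) (m.restrict S) :=
        (int_of_mem (hC.Γ_mem1 (hC.test_A (hf i).1).1 (hC.test_A (hf j).1).1)).restrict
      exact (h2.sub (integrable_const _)).abs
  have her0 : ∀ᵐ x ∂(m.restrict S), 0 ≤ 66 * K0 * er C f ρ x := by
    refine Eventually.of_forall fun x => ?_
    have hρ0 : 0 ≤ ρ := hs.le.trans hsρ
    unfold er
    have : 0 ≤ ρ * ∑ i, |C.lap (f i) x| := mul_nonneg hρ0 (Finset.sum_nonneg fun i _ => abs_nonneg _)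
    have : 0 ≤ ∑ i, ∑ j, |C.Γ (f i) (f j) x - if i = j then 1 else 0| :=
      Finset.sum_nonneg fun i _ => Finset.sum_nonneg fun j _ => abs_nonneg _
    positivity
  rw [withDensity_apply _ hSm, ← integral_eq_lintegral_of_nonneg_ae her0 her_int.1]
  calc |∫ x in B, lapE (ps n z s) (U x) ∂m|
      = |∫ x in B, (lapE (ps n z s) (U x) - C.lap ψ x) ∂m| := by
        rw [integral_sub hlE_int hlap_int, hzero, sub_zero]
    _ = |∫ x in S, (lapE (ps n z s) (U x) - C.lap ψ x) ∂m| := by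
        congr 1
        rw [← integral_indicator hBm, ← integral_indicator hSm]
        refine integral_congr_ae ?_
        filter_upwards [p1] with x b1
        by_cases hxB : x ∈ B
        · by_cases hxV : x ∈ U ⁻¹' closedBall z (4 * s)
          · rw [indicator_of_mem hxB, indicator_of_mem (show x ∈ S from ⟨hxB, hxV⟩)]
          · rw [indicator_of_mem hxB, indicator_of_notMem (show x ∉ S from fun h => hxV h.2), b1,
              lap_ps, lap_ph, GG_zero (hout x hxV).le, GG_deriv_zero (hout x hxV)]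
            ring
        · rw [indicator_of_notMem hxB, indicator_of_notMem (show x ∉ S from fun h => hxB h.1)]
    _ ≤ ∫ x in S, |lapE (ps n z s) (U x) - C.lap ψ x| ∂m := abs_integral_le_integral_abs
    _ ≤ ∫ x in S, s⁻¹ ^ 2 * (66 * K0 * er C f ρ x) ∂m := by
        refine integral_mono_ae ((hlE_int.mono_set inter_subset_left).sub
          (hlap_int.mono_set inter_subset_left)).abs (her_int.const_mul _) ?_
        refine (ae_restrict_iff' hSm).2 ?_
        filter_upwards [p1] with x b1 hxS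
        rw [b1, lap_ps, lap_ph]
        exact point_alg (y := U x) (z := z) (l := fun i => C.lap (f i) x)
          (g := fun i j => C.Γ (f i) (f j) x) hK0 hs hsρ (hK1 _) (hK2 _) hxS.2
    _ = s⁻¹ ^ 2 * ∫ x in S, 66 * K0 * er C f ρ x ∂m := integral_const_mul _ _

end main

end Vale.Agent.P242.H607
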