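import Vale.Agent.P242.H607.Ratio
import Vale.Agent.P242.H751.BlkF
import Vale.Agent.P242.H71.Voc

/-! P242, helper607 (package A-VOL): geometry of small balls around a regular point. -/

set_option linter.all false

open Set Metric Filter Topology MeasureTheory
open scoped ENNReal NNReal InnerProductSpace

namespace Vale.Agent.P242.H607

universe u

open Vale.Agent.P233 Vale.Agent.P233.RA Vale.Agent.P242.H71

/-- closed balls of a proper geodesic space are connected -/
theorem ball_conn {M : Type u} [MetricSpace M] [ProperSpace M]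
    (hg : ∀ x y : M, ∀ s t : ℝ, 0 ≤ s → 0 ≤ t → s + t = dist x y →
      ∃ w, dist x w = s ∧ dist w y = t) (x : M) (r : ℝ) : IsPreconnected (closedBall x r) := by
  have key : ∀ t t' : Set M, IsClosed t → IsClosed t' → closedBall x r ⊆ t ∪ t' → x ∈ t →
      (closedBall x r ∩ t').Nonempty → (closedBall x r ∩ (t ∩ t')).Nonempty := by
    intro t t' ht ht' hsub hx hne
    have hcomp : IsCompact (closedBall x r ∩ t') := (isCompact_closedBall x r).inter_right ht'
    obtain ⟨y, ⟨hy, hyt⟩, hmin⟩ := hcomp.exists_isMinOn hne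
      (continuous_const.dist continuous_id : Continuous fun z : M => dist x z).continuousOn
    refine ⟨y, hy, ?_, hyt⟩
    rw [← ht.closure_eq, Metric.mem_closure_iff]
    intro ε hε
    rcases (dist_nonneg (x := x) (y := y)).eq_or_lt with h0 | h0
    · have : x = y := dist_eq_zero.1 h0.symm
      exact ⟨x, hx, by rw [this, dist_self]; exact hε⟩
    · set s := max 0 (dist x y - ε / 2) with hs
      have hs0 : 0 ≤ s := le_max_left _ _
      have hsd : s < dist x y := max_lt h0 (by linarith)
      have hs2 : dist x y - ε / 2 ≤ s := le_max_right _ _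
      obtain ⟨w, hw1, hw2⟩ := hg x y s (dist x y - s) hs0 (by linarith) (by ring)
      have hyr : dist y x ≤ r := hy
      have hwB : w ∈ closedBall x r := by
        rw [mem_closedBall, dist_comm, hw1]
        rw [dist_comm y x] at hyr
        linarith
      rcases hsub hwB with h1 | h1
      · refine ⟨w, h1, ?_⟩
        rw [dist_comm, hw2]
        linarith
      · have h2 := hmin (show w ∈ closedBall x r ∩ t' from ⟨hwB, h1⟩)
        have h3 : dist x y ≤ dist x w := h2
        linarith
  rw [isPreconnected_closed_iff]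
  intro t t' ht ht' hsub h1 h2
  by_cases hr : 0 ≤ r
  · rcases hsub (mem_closedBall_self hr) with hx | hx
    · exact key t t' ht ht' hsub hx h2
    · rw [inter_comm t t']
      exact key t' t ht' ht (by rwa [union_comm]) hx h1
  · obtain ⟨z, hz, -⟩ := h1
    exact absurd (dist_nonneg.trans hz) hr

section cfg

variable {M : Type u} [MetricSpace M] [MeasurableSpace M] [BorelSpace M] {m : Measure M} {n : ℕ}
  {K : ℝ} {o : M} {A : ℝ} {p : ℝ → M → M → ℝ} {R Q η ρ : ℝ} {u : Fin n → M →ₘ[m] ℝ}
  {uu : M → E n}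

/-- a point at distance `ρ / 4` -/
theorem sphere_pt (hn : 1 ≤ n)
    (hg : ∀ x y : M, ∀ s t : ℝ, 0 ≤ s → 0 ≤ t → s + t = dist x y →
      ∃ w, dist x w = s ∧ dist w y = t) (hu : Cfg m n K o p 8 Q η ρ u uu) (hη0 : 0 ≤ η)
    (hη : η ≤ 1 / 4) : ∃ y, dist y o = ρ / 4 := by
  have hρ := hu.ρ_pos
  have hne : Nontrivial (E n) := by
    haveI : Nonempty (Fin n) := ⟨⟨0, hn⟩⟩
    infer_instance
  obtain ⟨v, hv⟩ := exists_norm_eq (E n) hρ.le
  obtain ⟨y, hy1, hy2⟩ := hu.dens o (mem_ball_self (by positivity)) v (by rw [hv]; linarith)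
  rw [hv] at hy1
  have hyo : y ∈ ball o (8 * ρ) := by
    rw [mem_ball, dist_comm]
    linarith
  have h1 := (abs_le.1 (hu.iso o (mem_ball_self (by positivity)) y hyo)).2
  have h2 : ρ ≤ dist (uu o) (uu y) + η * ρ := by
    have h3 : ‖v‖ ≤ ‖uu y - uu o‖ + ‖uu y - uu o - v‖ := by
      have e : v = (uu y - uu o) - (uu y - uu o - v) := by abel
      calc ‖v‖ = ‖(uu y - uu o) - (uu y - uu o - v)‖ := by rw [← e]
        _ ≤ _ := norm_sub_le _ _
    rw [hv, ← dist_eq_norm, dist_comm] at h3
    linarith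
  have h4 : ρ / 4 ≤ dist o y := by nlinarith
  obtain ⟨w, hw, -⟩ := hg o y (ρ / 4) (dist o y - ρ / 4) (by linarith) (by linarith) (by ring)
  exact ⟨w, by rw [dist_comm, hw]⟩

end cfg

end Vale.Agent.P242.H607
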