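import Vale.Agent.P242.H607.LapCalc
import Vale.Agent.P242.H358.GH3

/-! P242, helper607 (package A-VOL, part (b)): lower bound for the volume of a ball with an almost
splitting map. -/

set_option linter.all false

open Set Metric Filter Topology MeasureTheory
open scoped ContDiff InnerProductSpace

namespace Vale.Agent.P242.H607

universe u

open Vale.Agent.P233 Vale.Agent.P242.H358

/-! ### Choice of constants -/

/-- the real number inequality at the end -/
theorem final_par (n : ℕ) {ψ C2 : ℝ} (hψ : 0 < ψ) (hψ1 : ψ ≤ 1) (hC2 : 0 ≤ C2) :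
    ∃ e : ℝ, 0 < e ∧ e ≤ 1 ∧ ∃ δ : ℝ, 0 < δ ∧ δ ≤ 1 ∧ ∀ d : ℝ, 0 ≤ d → d ≤ δ →
      (1 - ψ) * (1 + d) ^ n + C2 * d ≤ (1 - e) ^ n := by
  have h1 : ContinuousAt (fun e : ℝ => (1 - e) ^ n) 0 := by fun_prop
  have h2 : ∀ᶠ e : ℝ in 𝓝 0, 1 - ψ / 2 < (1 - e) ^ n := by
    refine h1.eventually (lt_mem_nhds ?_)
    simp
    exact hψ
  have h3 : ∀ᶠ e : ℝ in 𝓝[>] (0 : ℝ), 1 - ψ / 2 < (1 - e) ^ n := h2.filter_mono nhdsWithin_le_nhds
  obtain ⟨e, he, he1⟩ := (h3.and (Ioc_mem_nhdsGT (show (0 : ℝ) < 1 by norm_num))).exists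
  refine ⟨e, he1.1, he1.2, ?_⟩
  have h4 : ContinuousAt (fun d : ℝ => (1 - ψ) * (1 + d) ^ n + C2 * d) 0 := by fun_prop
  have h5 : ∀ᶠ d : ℝ in 𝓝 0, (1 - ψ) * (1 + d) ^ n + C2 * d < 1 - ψ / 2 := by
    refine h4.eventually (gt_mem_nhds ?_)
    simp
    exact hψ
  obtain ⟨r, hr, hr2⟩ := Metric.eventually_nhds_iff.1 h5
  refine ⟨min 1 (r / 2), lt_min one_pos (by positivity), min_le_left _ _, fun d hd hd2 => ?_⟩
  have h6 : dist d 0 < r := by
    rw [Real.dist_eq, sub_zero, abs_of_nonneg hd]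
    have := min_le_right 1 (r / 2)
    linarith
  exact (hr2 h6).le.trans he.le

section prep

variable {n : ℕ} {M : Type u} [MetricSpace M]

/-- the map with components `U i` -/
noncomputable def mp (U : Fin n → M → ℝ) (x : M) : E n := WithLp.toLp 2 fun i => U i x

theorem mp_apply (U : Fin n → M → ℝ) (x : M) (i : Fin n) : mp U x i = U i x := rfl

theorem mp_dist (U : Fin n → M → ℝ) (x y : M) :
    dist (mp U x) (mp U y) ^ 2 = ∑ i, (U i x - U i y) ^ 2 := by
  rw [EuclideanSpace.dist_eq, Real.sq_sqrt (Finset.sum_nonneg fun i _ => sq_nonneg _)]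
  refine Finset.sum_congr rfl fun i _ => ?_
  rw [mp_apply, mp_apply, Real.dist_eq, sq_abs]

theorem mp_cont {U : Fin n → M → ℝ} (hU : ∀ i, Continuous (U i)) : Continuous (mp U) := by
  unfold mp
  fun_prop

/-- radii of balls contained in a ball -/
theorem ball_sub {n : ℕ} (hn : 1 ≤ n) {z w : E n} {a b : ℝ} (ha : 0 < a)
    (h : closedBall z a ⊆ closedBall w b) : a ≤ b := by
  have hne : Nontrivial (E n) := by
    haveI : Nonempty (Fin n) := ⟨⟨0, hn⟩⟩
    infer_instance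
  obtain ⟨v, hv⟩ := exists_norm_eq (E n) ha.le
  have h1 : z + v ∈ closedBall z a := by simp [hv]
  have h2 : z - v ∈ closedBall z a := by simp [hv]
  have h3 := mem_closedBall.1 (h h1)
  have h4 := mem_closedBall.1 (h h2)
  have h5 := dist_triangle_right (z + v) (z - v) w
  have h6 : dist (z + v) (z - v) = 2 * a := by
    rw [dist_eq_norm, show z + v - (z - v) = (2 : ℝ) • v by module, norm_smul, hv]
    simp
  linarith

/-- a cut-off function -/
noncomputable def cutf (x : M) (R : ℝ) (y : M) : ℝ := max 0 (min 1 (12 / R * (R / 4 - dist y x)))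

theorem cutf_lip (x : M) {R : ℝ} (hR : 0 < R) : ∃ L, LipschitzWith L (cutf x R) := by
  refine ⟨Real.toNNReal (12 / R), ?_⟩
  have h1 : LipschitzWith (Real.toNNReal (12 / R)) (fun y : M => 12 / R * (R / 4 - dist y x)) := by
    refine LipschitzWith.of_dist_le_mul fun y z => ?_
    rw [Real.coe_toNNReal _ (by positivity), Real.dist_eq]
    have : 12 / R * (R / 4 - dist y x) - 12 / R * (R / 4 - dist z x) =
        12 / R * (dist z x - dist y x) := by ring
    rw [this, abs_mul, abs_of_nonneg (by positivity : 0 ≤ 12 / R)]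
    refine mul_le_mul_of_nonneg_left ?_ (by positivity)
    rw [dist_comm y z]
    exact abs_dist_sub_le z y x
  exact (h1.const_min 1).const_max 0

theorem cutf_zero {x : M} {R : ℝ} (hR : 0 < R) {y : M} (h : R / 4 ≤ dist y x) :
    cutf x R y = 0 := by
  unfold cutf
  refine max_eq_left ((min_le_right _ _).trans ?_)
  have : 0 < 12 / R := by positivity
  nlinarith

theorem cutf_one {x : M} {R : ℝ} (hR : 0 < R) {y : M} (h : dist y x ≤ R / 6) :
    cutf x R y = 1 := by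
  unfold cutf
  have h1 : 1 ≤ 12 / R * (R / 4 - dist y x) := by
    have : 12 / R * (R / 12) ≤ 12 / R * (R / 4 - dist y x) := by
      refine mul_le_mul_of_nonneg_left (by linarith) (by positivity)
    have e : 12 / R * (R / 12) = 1 := by field_simp
    linarith
  rw [min_eq_left h1]
  simp

end prep

/-- the defect is locally integrable -/
theorem er_int {M : Type u} [MeasurableSpace M] {m : Measure M} {C : Calc m} (hC : IsGamma C)
    {n : ℕ} {f : Fin n → M →ₘ[m] ℝ} (hf : ∀ i, f i ∈ C.TestI) (ρ : ℝ) {S : Set M}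
    (hmS : m S ≠ ⊤) : IntegrableOn (fun x => er C f ρ x) S m := by
  haveI : IsFiniteMeasure (m.restrict S) := ⟨by rw [Measure.restrict_apply_univ]; exact hmS.lt_top⟩
  unfold er
  refine Integrable.add (Integrable.const_mul (integrable_finset_sum _ fun i _ => ?_) _)
    (integrable_finset_sum _ fun i _ => integrable_finset_sum _ fun j _ => ?_)
  · obtain ⟨K, hK⟩ := mem_top_iff.1 (hf i).2
    refine (Integrable.of_bound (C.lap (f i)).aestronglyMeasurable.restrict K ?_).abs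
    exact ae_restrict_of_ae (by simpa using hK)
  · have h2 : Integrable (fun x => C.Γ (f i) (f j) x) (m.restrict S) :=
      (int_of_mem (hC.Γ_mem1 (hC.test_A (hf i).1).1 (hC.test_A (hf j).1).1)).restrict
    exact (h2.sub (integrable_const _)).abs

theorem er_nonneg {M : Type u} [MeasurableSpace M] {m : Measure M} (C : Calc m)
    {n : ℕ} (f : Fin n → M →ₘ[m] ℝ) {ρ : ℝ} (hρ : 0 ≤ ρ) (x : M) : 0 ≤ er C f ρ x := by
  unfold er
  have h1 : 0 ≤ ρ * ∑ i, |C.lap (f i) x| := mul_nonneg hρ (Finset.sum_nonneg fun i _ => abs_nonneg _)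
  have h2 : 0 ≤ ∑ i, ∑ j, |C.Γ (f i) (f j) x - if i = j then 1 else 0| :=
    Finset.sum_nonneg fun i _ => Finset.sum_nonneg fun j _ => abs_nonneg _
  linarith

theorem er_meas {M : Type u} [MeasurableSpace M] {m : Measure M} (C : Calc m)
    {n : ℕ} (f : Fin n → M →ₘ[m] ℝ) (ρ : ℝ) : Measurable fun x => er C f ρ x := by
  unfold er
  refine Measurable.add (Measurable.const_mul (Finset.measurable_sum _ fun i _ => ?_) _)
    (Finset.measurable_sum _ fun i _ => Finset.measurable_sum _ fun j _ => ?_)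
  · exact (AEEqFun.measurable (C.lap (f i))).abs
  · exact ((AEEqFun.measurable (C.Γ (f i) (f j))).sub_const _).abs

/-- `|∑ (Γ(U_i,U_i) + (U_i - U_i(x)) Δ U_i) - n| ≤ 2 er`. -/
theorem Sf_le {M : Type u} [MetricSpace M] [MeasurableSpace M] {m : Measure M} {C : Calc m}
    {n : ℕ} {U : Fin n → M → ℝ} {x z : M} {R : ℝ} (hR : 0 ≤ R)
    (h : ∀ i, |U i z - U i x| ≤ 2 * R) :
    |Sf C U (fun i => C.lap (cl m (U i))) x z - n| ≤ 2 * er C (fun i => cl m (U i)) R z := by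
  unfold Sf er
  have e1 : ∑ i, (C.Γ (cl m (U i)) (cl m (U i)) z + (U i z - U i x) * C.lap (cl m (U i)) z) - n =
      ∑ i, (C.Γ (cl m (U i)) (cl m (U i)) z - 1) +
        ∑ i, (U i z - U i x) * C.lap (cl m (U i)) z := by
    rw [Finset.sum_add_distrib, Finset.sum_sub_distrib]
    simp
    ring
  rw [e1]
  have b1 : |∑ i, (C.Γ (cl m (U i)) (cl m (U i)) z - 1)| ≤
      ∑ i, ∑ j, |C.Γ (cl m (U i)) (cl m (U j)) z - if i = j then 1 else 0| := by
    refine (Finset.abs_sum_le_sum_abs _ _).trans (Finset.sum_le_sum fun i _ => ?_)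
    have h := Finset.single_le_sum
      (f := fun j => |C.Γ (cl m (U i)) (cl m (U j)) z - if i = j then (1 : ℝ) else 0|)
      (fun j _ => abs_nonneg _) (Finset.mem_univ i)
    simpa using h
  have b2 : |∑ i, (U i z - U i x) * C.lap (cl m (U i)) z| ≤
      2 * (R * ∑ i, |C.lap (cl m (U i)) z|) := by
    refine (Finset.abs_sum_le_sum_abs _ _).trans ?_
    rw [Finset.mul_sum, Finset.mul_sum]
    refine Finset.sum_le_sum fun i _ => ?_
    rw [abs_mul, ← mul_assoc]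
    exact mul_le_mul_of_nonneg_right (h i) (abs_nonneg _)
  have b3 : 0 ≤ ∑ i, ∑ j, |C.Γ (cl m (U i)) (cl m (U j)) z - if i = j then (1 : ℝ) else 0| :=
    Finset.sum_nonneg fun i _ => Finset.sum_nonneg fun j _ => abs_nonneg _
  refine (abs_add_le _ _).trans ?_
  linarith

section steps

variable {n : ℕ} {M : Type u} [MetricSpace M] [CompleteSpace M] [SecondCountableTopology M]
  [MeasurableSpace M] [BorelSpace M] {m : Measure M} {K c δ ψ' K1 R : ℝ} {x : M}
  {U : Fin n → M → ℝ}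

theorem lip1 (d0 : 0 < δ)
    (hUlip : ∀ y ∈ ball x R, ∀ z ∈ ball x R, ∑ i, (U i y - U i z) ^ 2 ≤ (1 + δ) * dist y z ^ 2) :
    ∀ y ∈ ball x R, ∀ z ∈ ball x R, dist (mp U y) (mp U z) ≤ (1 + δ) * dist y z := by
  intro y hy z hz
  have h1 := hUlip y hy z hz
  rw [← mp_dist] at h1
  have h2 : (1 + δ) * dist y z ^ 2 ≤ ((1 + δ) * dist y z) ^ 2 := by
    have : 0 ≤ dist y z ^ 2 := sq_nonneg _
    nlinarith [mul_nonneg d0.le this, mul_nonneg (mul_nonneg d0.le d0.le) this]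
  exact le_of_sq_le_sq (h1.trans h2) (by positivity)

theorem lip2 (d0 : 0 < δ) (d4 : δ ≤ 1)
    (hL1 : ∀ y ∈ ball x R, ∀ z ∈ ball x R, dist (mp U y) (mp U z) ≤ (1 + δ) * dist y z) :
    ∀ y ∈ ball x R, ∀ z ∈ ball x R, dist (mp U y) (mp U z) ≤ 2 * dist y z := by
  intro y hy z hz
  refine (hL1 y hy z hz).trans ?_
  have : 0 ≤ dist y z := dist_nonneg
  nlinarith

theorem Sf_int (hG : IsGamma (sob m)) (hR : 0 < R) (hfin : m (ball x R) ≠ ⊤)
    (hUT : ∀ i, cl m (U i) ∈ (sob m).TestI)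
    (hL2 : ∀ y ∈ ball x R, ∀ z ∈ ball x R, dist (mp U y) (mp U z) ≤ 2 * dist y z)
    {ε : ℝ} (her : ∫ z in ball x R, er (sob m) (fun i => cl m (U i)) R z ∂m ≤ ε) :
    ∫ z in ball x R, |Sf (sob m) U (fun i => (sob m).lap (cl m (U i))) x z - n| ∂m ≤ 2 * ε := by
  have hxR : x ∈ ball x R := mem_ball_self hR
  have hint := er_int hG (f := fun i => cl m (U i)) hUT R hfin
  have hcoord : ∀ w ∈ ball x R, ∀ i, |U i w - U i x| ≤ 2 * R := by
    intro w hw i
    have h1 : |(mp U w - mp U x) i| ≤ ‖mp U w - mp U x‖ := by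
      rw [← Real.norm_eq_abs]
      exact PiLp.norm_apply_le (mp U w - mp U x) i
    rw [← dist_eq_norm] at h1
    have h2 := hL2 w hw x hxR
    have h3 : dist w x < R := hw
    exact h1.trans (h2.trans (by linarith))
  calc ∫ z in ball x R, |Sf (sob m) U (fun i => (sob m).lap (cl m (U i))) x z - n| ∂m
      ≤ ∫ z in ball x R, 2 * er (sob m) (fun i => cl m (U i)) R z ∂m := by
        refine integral_mono_of_nonneg (Eventually.of_forall fun _ => abs_nonneg _)
          (hint.const_mul 2) ?_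
        refine (ae_restrict_iff' measurableSet_ball).2 (Eventually.of_forall fun w hw => ?_)
        exact Sf_le hR.le (hcoord w hw)
    _ = 2 * ∫ z in ball x R, er (sob m) (fun i => cl m (U i)) R z ∂m :=
        integral_const_mul _ _
    _ ≤ 2 * ε := by gcongr

theorem near6 (hψ'1 : ψ' ≤ 1 / 100) (hR : 0 < R)
    (hiso : ∀ z ∈ ball x (R / 2), |dist (mp U z) (mp U x) ^ 2 - dist z x ^ 2| ≤ ψ' * R ^ 2) :
    ∀ y ∈ closedBall x (R / 4), mp U y ∈ closedBall (mp U x) (R / 8) → dist y x ≤ R / 6 := by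
  intro y hy hyV
  have h1 := (abs_le.1 (hiso y (closedBall_subset_ball (by linarith) hy))).1
  have h2 : dist (mp U y) (mp U x) ≤ R / 8 := hyV
  have h3 : dist (mp U y) (mp U x) ^ 2 ≤ (R / 8) ^ 2 := pow_le_pow_left₀ dist_nonneg h2 2
  have h4 : dist y x ^ 2 ≤ (R / 6) ^ 2 := by
    have : ψ' * R ^ 2 ≤ 1 / 100 * R ^ 2 := mul_le_mul_of_nonneg_right hψ'1 (sq_nonneg _)
    nlinarith [sq_nonneg R]
  exact le_of_sq_le_sq h4 (by positivity)

theorem far10 (hψ'1 : ψ' ≤ 1 / 100) (hR : 0 < R)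
    (hiso : ∀ z ∈ ball x (R / 2), |dist (mp U z) (mp U x) ^ 2 - dist z x ^ 2| ≤ ψ' * R ^ 2)
    {y1 : M} (hy1 : dist y1 x = R / 4) :
    ∀ z, dist z (mp U x) ≤ R / 64 → R / 10 ≤ dist (mp U y1) z := by
  intro z hz
  have h1 := (abs_le.1 (hiso y1 (by rw [mem_ball, hy1]; linarith))).1
  have h2 : (R / 6) ^ 2 ≤ dist (mp U y1) (mp U x) ^ 2 := by
    rw [hy1] at h1
    have : ψ' * R ^ 2 ≤ 1 / 100 * R ^ 2 := mul_le_mul_of_nonneg_right hψ'1 (sq_nonneg _)
    nlinarith [sq_nonneg R]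
  have h3 := le_of_sq_le_sq h2 dist_nonneg
  have h4 := dist_triangle (mp U y1) z (mp U x)
  linarith

theorem balls_in (hc : 0 < c) (hR : 0 < R)
    (hVB : ∀ y ∈ closedBall x (R / 4), mp U y ∈ closedBall (mp U x) (R / 8) → dist y x ≤ R / 6)
    (hvl : ∀ y ∈ ball x R, ∀ r, 0 < r → r ≤ R → c * r ^ n ≤ m.real (ball y r))
    {σ : ℝ} (hσ : σ ≤ R / 12) : ∀ y ∈ closedBall x (R / 4),
      mp U y ∈ closedBall (mp U x) (R / 8) → ∀ t, 0 < t → t ≤ σ →
      ball y t ⊆ closedBall x (R / 4) ∧ ENNReal.ofReal (c * t ^ n) ≤ m (ball y t) := by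
  intro y hy hyV t ht htσ
  have h1 := hVB y hy hyV
  have hsub : ball y t ⊆ closedBall x (R / 4) := by
    intro w hw
    have h2 : dist w y < t := hw
    have h3 := dist_triangle w y x
    show dist w x ≤ R / 4
    linarith
  refine ⟨hsub, ?_⟩
  have h4 := hvl y (closedBall_subset_ball (by linarith) hy) t ht (by linarith)
  exact ENNReal.ofReal_le_of_le_toReal h4

/-- the measure of the defect -/
noncomputable def lamM (m : Measure M) (U : Fin n → M → ℝ) (K1 R : ℝ) : Measure M :=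
  m.withDensity fun y => ENNReal.ofReal (K1 * er (sob m) (fun i => cl m (U i)) R y)

theorem lam_le (hG : IsGamma (sob m)) (hR : 0 < R) (hfin : m (ball x R) ≠ ⊤) (hK1 : 1 ≤ K1)
    (hUT : ∀ i, cl m (U i) ∈ (sob m).TestI)
    {ε : ℝ} (her : ∫ z in ball x R, er (sob m) (fun i => cl m (U i)) R z ∂m ≤ ε) :
    lamM m U K1 R (ball x R) ≤ ENNReal.ofReal (K1 * ε) := by
  unfold lamM
  rw [withDensity_apply _ measurableSet_ball,
    ← ofReal_integral_eq_lintegral_ofReal ((er_int hG hUT R hfin).const_mul K1)]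
  · refine ENNReal.ofReal_le_ofReal ?_
    rw [integral_const_mul]
    exact mul_le_mul_of_nonneg_left her (by linarith)
  · refine Eventually.of_forall fun y => ?_
    have := er_nonneg (sob m) (fun i => cl m (U i)) hR.le y
    positivity

theorem lapRad_step (hn : 1 ≤ n)
    (hrad : ∀ {C : Calc m} (_ : IsGamma C) {κ : ℝ} (_ : C.BEi κ) {f : Fin n → M →ₘ[m] ℝ}
      (_ : ∀ i, f i ∈ C.TestI) {U : M → E n} (_ : Measurable U)
      (_ : ∀ i, ∀ᵐ x ∂m, f i x = U x i) {B : Set M} (_ : MeasurableSet B) (_ : m B ≠ ⊤)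
      {V : Set (E n)} {ρ : ℝ} (_ : ∀ z s, 0 < s → closedBall z (4 * s) ⊆ V → s ≤ ρ)
      {χ : M →ₘ[m] ℝ} (_ : χ ∈ C.W) (_ : ∀ᵐ x ∂m, x ∈ B → U x ∈ V → χ x = 1)
      (_ : ∀ᵐ x ∂m, x ∉ B → χ x = 0),
      LapRad m (m.withDensity fun x => ENNReal.ofReal (K1 * er C f ρ x)) U B V)
    (hS : Std m K n) (hR : 0 < R) (hUc : ∀ i, Continuous (U i))
    (hUT : ∀ i, cl m (U i) ∈ (sob m).TestI) (hmB : m (closedBall x (R / 4)) ≠ ⊤)
    (hVB : ∀ y ∈ closedBall x (R / 4), mp U y ∈ closedBall (mp U x) (R / 8) → dist y x ≤ R / 6) :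
    LapRad m (lamM m U K1 R) (mp U) (closedBall x (R / 4)) (closedBall (mp U x) (R / 8)) := by
  have hG : IsGamma (sob m) := isGamma_sob hS.hfin hS.rcd.quadratic hS.rcd.sobolev_to_lipschitz
  have hBE : (sob m).BEi K := hG.bei hS.hN hS.rcd.bochner
  obtain ⟨Lχ, hLχ⟩ := cutf_lip x hR
  have hχ : cl m (cutf x R) ∈ (sob m).W := by
    refine (H866.cl_mem hS.hfin hLχ (x₀ := x) (R := R / 4) fun y hy => ?_).1
    refine cutf_zero hR ?_
    rw [mem_ball, not_lt] at hy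
    exact hy
  have hχae := H866.cl_ae (m := m) hLχ.continuous
  refine hrad hG hBE hUT (mp_cont hUc).measurable (fun i => H866.cl_ae (m := m) (hUc i))
    isClosed_closedBall.measurableSet hmB (fun z s hs hzs => ?_) hχ ?_ ?_
  · have := ball_sub hn (by positivity) hzs
    linarith
  · filter_upwards [hχae] with y hy hyB hyV
    rw [hy]
    exact cutf_one hR (hVB y hyB hyV)
  · filter_upwards [hχae] with y hy hyB
    rw [hy]
    refine cutf_zero hR ?_
    have : ¬ dist y x ≤ R / 4 := hyB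
    linarith

theorem dense_step (hc : 0 < c) (hR : 0 < R) (hUc : ∀ i, Continuous (U i))
    (hconn : IsPreconnected (closedBall x (R / 4))) (hmB : m (closedBall x (R / 4)) ≠ ⊤)
    (hL2 : ∀ y ∈ ball x R, ∀ z ∈ ball x R, dist (mp U y) (mp U z) ≤ 2 * dist y z)
    {lam : Measure M}
    (hlapR : LapRad m lam (mp U) (closedBall x (R / 4)) (closedBall (mp U x) (R / 8)))
    (hballs : ∀ y ∈ closedBall x (R / 4),
      mp U y ∈ closedBall (mp U x) (R / 8) → ∀ t, 0 < t → t ≤ R / 40 →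
      ball y t ⊆ closedBall x (R / 4) ∧ ENNReal.ofReal (c * t ^ n) ≤ m (ball y t))
    {y1 : M} (hy1 : dist y1 x = R / 4)
    (hfar : ∀ z, dist z (mp U x) ≤ R / 64 → R / 10 ≤ dist (mp U y1) z)
    (hlam : lam (closedBall x (R / 4)) ≤ ENNReal.ofReal
      (2 * ((3 : ℝ) ^ n)⁻¹ * (c / 8192 ^ n) * R ^ n)) :
    ∀ z, dist z (mp U x) ≤ R / 64 → ∃ y ∈ closedBall x (R / 4), dist (mp U y) z < R / 2048 := by
  intro z hz
  have hBR : closedBall x (R / 4) ⊆ ball x R := closedBall_subset_ball (by linarith)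
  have hxB : x ∈ closedBall x (R / 4) := mem_closedBall_self (by positivity)
  have hy1B : y1 ∈ closedBall x (R / 4) := hy1.le
  have hu : ContinuousOn (mp U) (closedBall x (R / 4)) := (mp_cont hUc).continuousOn
  by_cases hcl : z ∈ closure (mp U '' closedBall x (R / 4))
  · obtain ⟨w, ⟨y, hy, rfl⟩, hyz⟩ := Metric.mem_closure_iff.1 hcl (R / 2048) (by positivity)
    exact ⟨y, hy, by rwa [dist_comm]⟩
  · obtain ⟨s0, s1, s2⟩ := holes_aux (V' := closedBall (mp U x) (R / 64)) (σ := R / 40) (v0 := c)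
      isClosed_closedBall hconn hmB hu (fun y hy w hw => hL2 y (hBR hy) w (hBR hw)) hlapR
      (by positivity) hc
      (fun w hw => by
        refine closedBall_subset_closedBall' ?_
        have : dist w (mp U x) ≤ R / 64 := hw
        linarith)
      (fun w hw => ⟨x, hxB, by
        have : dist w (mp U x) ≤ R / 64 := hw
        rw [dist_comm]
        linarith⟩)
      (fun w hw => ⟨y1, hy1B, by have := hfar w hw; linarith⟩)
      hballs (z := z) ⟨hz, hcl⟩
    have hs : infDist z (mp U '' closedBall x (R / 4)) < R / 2048 := by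
      by_contra hneg
      push Not at hneg
      set s := infDist z (mp U '' closedBall x (R / 4)) with hs
      have h6 : 0 < 2 * ((3 : ℝ) ^ n)⁻¹ * (c / 8192 ^ n) * R ^ n := by positivity
      have h1 : (lam (closedBall x (R / 4) ∩ mp U ⁻¹' closedBall z (4 * s))).toReal ≤
          2 * ((3 : ℝ) ^ n)⁻¹ * (c / 8192 ^ n) * R ^ n := by
        refine ENNReal.toReal_le_of_le_ofReal h6.le ?_
        exact (measure_mono inter_subset_left).trans hlam
      have h2 : (R / 8192) ^ n ≤ (s / 4) ^ n :=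
        pow_le_pow_left₀ (by positivity) (by linarith) n
      have h3 : 4 * ((3 : ℝ) ^ n)⁻¹ * (c * (R / 8192) ^ n) ≤
          2 * ((3 : ℝ) ^ n)⁻¹ * (c / 8192 ^ n) * R ^ n := by
        refine le_trans ?_ (s2.trans h1)
        gcongr
      have h5 : 4 * ((3 : ℝ) ^ n)⁻¹ * (c * (R / 8192) ^ n) =
          2 * (2 * ((3 : ℝ) ^ n)⁻¹ * (c / 8192 ^ n) * R ^ n) := by
        rw [div_pow]
        ring
      linarith
    obtain ⟨w, ⟨y, hy, rfl⟩, hyz⟩ := (infDist_lt_iff ⟨mp U x, mem_image_of_mem _ hxB⟩).1 hs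
    exact ⟨y, hy, by rwa [dist_comm]⟩

/-- the real numbers at the end -/
theorem real_step {c C0 K1 C2 δ e ψ R V : ℝ} (hR : 0 < R) (d0 : 0 < δ)
    (hC2 : C2 = C0 / c * K1 * 32 ^ n)
    (h1 : (2 * ((1 - e) * (R / 64))) ^ n ≤ C0 / c * (K1 * (δ * R ^ n)) + (1 + δ) ^ n * V)
    (h3 : (1 - ψ) * (1 + δ) ^ n + C2 * δ ≤ (1 - e) ^ n) :
    (1 - ψ) * (2 * (R / 64)) ^ n ≤ V := by
  set Q : ℝ := (2 * (R / 64)) ^ n with hQ
  have hQ0 : 0 < Q := by positivity
  have e1 : (2 * ((1 - e) * (R / 64))) ^ n = (1 - e) ^ n * Q := by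
    rw [hQ, ← mul_pow]
    congr 1
    ring
  have e2 : R ^ n = 32 ^ n * Q := by
    rw [hQ, ← mul_pow]
    congr 1
    ring
  rw [e1, e2] at h1
  have e3 : C0 / c * (K1 * (δ * (32 ^ n * Q))) = C2 * δ * Q := by
    rw [hC2]
    ring
  rw [e3] at h1
  have h4 : ((1 - ψ) * (1 + δ) ^ n + C2 * δ) * Q ≤ (1 - e) ^ n * Q :=
    mul_le_mul_of_nonneg_right h3 hQ0.le
  have h5 : (1 + δ) ^ n * ((1 - ψ) * Q) ≤ (1 + δ) ^ n * V := by
    linarith
  exact le_of_mul_le_mul_left h5 (by positivity)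

theorem iso_r {e ψ' R D d : ℝ} (he : 0 < e) (he1 : e ≤ 1) (hR : 0 < R) (hψ'2 : ψ' ≤ e / 4096)
    (hD : 0 ≤ D) (hd : 0 ≤ d) (h1 : -(ψ' * R ^ 2) ≤ D ^ 2 - d ^ 2) (h : D ≤ (1 - e) * (R / 64)) :
    d ≤ R / 64 := by
  have h3 : D ^ 2 ≤ ((1 - e) * (R / 64)) ^ 2 := pow_le_pow_left₀ hD h 2
  have h5 : ψ' * R ^ 2 ≤ e / 4096 * R ^ 2 := mul_le_mul_of_nonneg_right hψ'2 (sq_nonneg _)
  have h6 : ((1 - e) * (R / 64)) ^ 2 ≤ (1 - e) * (R / 64) ^ 2 := by
    rw [mul_pow]
    refine mul_le_mul_of_nonneg_right ?_ (sq_nonneg _)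
    nlinarith
  have h4 : d ^ 2 ≤ (R / 64) ^ 2 := by nlinarith
  exact le_of_sq_le_sq h4 (by positivity)

end steps

/-- **Volume of a ball with an almost splitting map.** -/
theorem vol_ratio_low (n : ℕ) (hn : 1 ≤ n) {c Cv ψ : ℝ} (hc : 0 < c) (hCv : 0 ≤ Cv) (hψ : 0 < ψ)
    (hψ1 : ψ ≤ 1) :
    ∃ δ > 0, ∀ {M : Type u} [MetricSpace M] [CompleteSpace M] [SecondCountableTopology M]
      [MeasurableSpace M] [BorelSpace M] {m : Measure M} {K : ℝ} (hS : Std m K n)
      (hm : m = μH[(n : ℝ)]) (x : M) (R : ℝ), 0 < R → |K| * R ^ 2 ≤ δ →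
      IsCompact (closedBall x (R / 4)) → IsPreconnected (closedBall x (R / 4)) →
      (∃ y, dist y x = R / 4) →
      (∀ y ∈ ball x R, ∀ r, 0 < r → r ≤ R → c * r ^ n ≤ m.real (ball y r)) →
      (∀ r, 0 < r → r ≤ R → m.real (ball x r) ≤ Cv * r ^ n) →
      ∀ (U : Fin n → M → ℝ), (∀ i, Continuous (U i)) → (∀ i, cl m (U i) ∈ (sob m).TestI) →
      (∀ y ∈ ball x R, ∀ z ∈ ball x R, ∑ i, (U i y - U i z) ^ 2 ≤ (1 + δ) * dist y z ^ 2) →
      (∫ z in ball x R, er (sob m) (fun i => cl m (U i)) R z ∂m ≤ δ * R ^ n) →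
      (1 - ψ) * (2 * (R / 64)) ^ n ≤ m.real (closedBall x (R / 64)) := by
  obtain ⟨K1, hK1, hrad⟩ := lapRad_of.{u} n
  obtain ⟨C0, hC0, hlow⟩ := vol_lower.{u} (n := n) (by omega)
  set C2 : ℝ := C0 / c * K1 * 32 ^ n with hC2
  have hC20 : 0 ≤ C2 := by positivity
  obtain ⟨e, he, he1, δ1, hδ1, hδ11, hpar⟩ := final_par n hψ hψ1 hC20
  obtain ⟨ψ', hψ'0, hψ'1, hψ'2⟩ : ∃ ψ' : ℝ, 0 < ψ' ∧ ψ' ≤ 1 / 100 ∧ ψ' ≤ e / 4096 :=
    ⟨min (1 / 100) (e / 4096), lt_min (by norm_num) (by positivity), min_le_left _ _,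
      min_le_right _ _⟩
  obtain ⟨δ3, hδ3, hgh⟩ := gh_main.{u} n hn hc hCv hψ'0
  obtain ⟨δ, d0, d1, d2, d3, d4⟩ : ∃ δ : ℝ, 0 < δ ∧ δ ≤ δ1 ∧
      K1 * δ ≤ 2 * ((3 : ℝ) ^ n)⁻¹ * (c / 8192 ^ n) ∧ 2 * δ ≤ δ3 ∧ δ ≤ 1 := by
    have h0 : 0 < 2 * ((3 : ℝ) ^ n)⁻¹ * (c / 8192 ^ n) / K1 := by positivity
    refine ⟨min (min δ1 (2 * ((3 : ℝ) ^ n)⁻¹ * (c / 8192 ^ n) / K1)) (min (δ3 / 2) 1),
      lt_min (lt_min hδ1 h0) (lt_min (by positivity) one_pos),
      (min_le_left _ _).trans (min_le_left _ _), ?_, ?_,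
      (min_le_right _ _).trans (min_le_right _ _)⟩
    · have h1 := (min_le_left (min δ1 (2 * ((3 : ℝ) ^ n)⁻¹ * (c / 8192 ^ n) / K1))
        (min (δ3 / 2) 1)).trans (min_le_right _ _)
      have h2 : (0 : ℝ) < K1 := by linarith
      rw [le_div_iff₀ h2] at h1
      linarith
    · have h1 := (min_le_right (min δ1 (2 * ((3 : ℝ) ^ n)⁻¹ * (c / 8192 ^ n) / K1))
        (min (δ3 / 2) 1)).trans (min_le_left _ _)
      linarith
  refine ⟨δ, d0, ?_⟩
  intro M _ _ _ _ _ m K hS hm x R hR hKR hcomp hconn hsph hvl hvu U hUc hUT hUlip her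
  have hG : IsGamma (sob m) := isGamma_sob hS.hfin hS.rcd.quadratic hS.rcd.sobolev_to_lipschitz
  have hfinc : ∀ r, m (closedBall x r) ≠ ⊤ := fun r =>
    ne_top_of_le_ne_top (hS.hfin x (r + 1)).ne (measure_mono (closedBall_subset_ball (by linarith)))
  have hL1 := lip1 d0 hUlip
  have hL2 := lip2 d0 d4 hL1
  have hRn : 0 < R ^ n := by positivity
  have hSf := Sf_int hG hR (hS.hfin x R).ne hUT hL2 her
  have hiso : ∀ z ∈ ball x (R / 2), |dist (mp U z) (mp U x) ^ 2 - dist z x ^ 2| ≤ ψ' * R ^ 2 := by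
    intro z hz
    have h := hgh hS x R hR (by linarith) hvl hvu U (fun i => (sob m).lap (cl m (U i))) hUc
      (fun i => hG.test_A (hUT i).1) (fun i => hG.test_isLap (hUT i).1)
      (fun w hw => (hUlip w hw x (mem_ball_self hR)).trans (by
        rw [dist_comm w x]
        have : 0 ≤ dist x w ^ 2 := sq_nonneg _
        nlinarith))
      (fun y hy w hw => (hUlip y hy w hw).trans (by
        have : 0 ≤ dist y w ^ 2 := sq_nonneg _
        nlinarith))
      (hSf.trans (by nlinarith)) z hz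
    rw [mp_dist, dist_comm z x]
    exact h
  have hVB := near6 hψ'1 hR hiso
  have hlapR := lapRad_step hn (fun hG _ hB _ hf _ hUm hU _ hBm hmB _ _ hρ _ hχ h1 h0 =>
    hrad hG hB hf hUm hU hBm hmB hρ hχ h1 h0) hS hR hUc hUT (hfinc _) hVB
  have hlamB : lamM m U K1 R (closedBall x (R / 4)) ≤ ENNReal.ofReal (K1 * (δ * R ^ n)) :=
    (measure_mono (closedBall_subset_ball (by linarith))).trans
      (lam_le hG hR (hS.hfin x R).ne hK1 hUT her)
  have hBR : closedBall x (R / 4) ⊆ ball x R := closedBall_subset_ball (by linarith)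
  obtain ⟨y1, hy1⟩ := hsph
  have hfar := far10 hψ'1 hR hiso hy1
  have hdense := dense_step hc hR hUc hconn (hfinc _) hL2 hlapR
    (balls_in hc hR hVB hvl (by linarith)) hy1 hfar
    (hlamB.trans (ENNReal.ofReal_le_ofReal (by
      rw [← mul_assoc]
      exact mul_le_mul_of_nonneg_right d2 hRn.le)))
  have hr' : (1 - e) * (R / 64) ≤ R / 64 := by nlinarith
  have hfinal := hlow m (lamM m U K1 R) (mp U) (closedBall x (R / 4)) (closedBall (mp U x) (R / 8))
    x (R / 64) ((1 - e) * (R / 64)) (R / 2048) c δ hcomp hconn (hfinc _)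
    (ne_top_of_le_ne_top ENNReal.ofReal_ne_top hlamB)
    (fun y hy w hw => hL2 y (hBR hy) w (hBR hw)) hlapR (by positivity) hc
    (mul_nonneg (by linarith) (by positivity)) d0.le
    (fun z hz => by
      show dist z (mp U x) ≤ R / 8
      linarith)
    (fun z hz => hdense z (hz.trans hr'))
    (fun z hz => ⟨y1, hy1.le, by have := hfar z (hz.trans hr'); linarith⟩)
    (balls_in hc hR hVB hvl (by linarith))
    (fun y hy hyd => iso_r he he1 hR hψ'2 dist_nonneg dist_nonneg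
      (abs_le.1 (hiso y (closedBall_subset_ball (by linarith) hy))).1 hyd)
    (fun y hy w hw _ _ => hL1 y (hBR hy) w (hBR hw))
  rw [← hm] at hfinal
  refine real_step hR d0 hC2 ?_ (hpar δ d0.le d1)
  have h2 : ENNReal.ofReal ((2 * ((1 - e) * (R / 64))) ^ n) ≤
      ENNReal.ofReal (C0 / c * (K1 * (δ * R ^ n)) +
        (1 + δ) ^ n * m.real (closedBall x (R / 64))) := by
    refine hfinal.trans ?_
    rw [ENNReal.ofReal_add (by positivity) (by positivity)]
    refine add_le_add ?_ ?_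
    · rw [ENNReal.ofReal_mul (by positivity)]
      gcongr
    · rw [ENNReal.ofReal_mul (by positivity)]
      gcongr
      rw [ofReal_measureReal (hfinc _)]
  exact (ENNReal.ofReal_le_ofReal_iff (by positivity)).1 h2

end Vale.Agent.P242.H607
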