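import Vale.Agent.P242.H607.Bump

/-! P242, helper607 (package VOL-SURJ): almost surjectivity of almost splitting maps. -/

set_option linter.all false

open Set Metric Filter Topology MeasureTheory
open scoped ContDiff InnerProductSpace

namespace Vale.Agent.P242.H607

universe u

variable {n : ℕ}

theorem ph_cont1 : ContDiff ℝ ∞ (fderiv ℝ (ph n)) := ph_cont.fderiv_right (by simp)

theorem ph_cont2 : Continuous (fderiv ℝ (fderiv ℝ (ph n))) :=
  ph_cont1.continuous_fderiv (by simp)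

theorem fd_bound {F : Type*} [NormedAddCommGroup F] [NormedSpace ℝ F] {f : E n → F}
    (hf : HasCompactSupport f) (hc : Continuous (fderiv ℝ f)) : ∃ M : ℝ, ∀ y, ‖fderiv ℝ f y‖ ≤ M :=
  (hf.fderiv ℝ).exists_bound_of_continuous hc

theorem ph_bound1 (n : ℕ) : ∃ M : ℝ, ∀ y : E n, ‖fderiv ℝ (ph n) y‖ ≤ M :=
  fd_bound ph_hasCompactSupport ph_cont1.continuous

theorem ph_compact1 : HasCompactSupport (fderiv ℝ (ph n)) := ph_hasCompactSupport.fderiv ℝ

theorem ph_bound2 (n : ℕ) : ∃ M : ℝ, ∀ y : E n, ‖fderiv ℝ (fderiv ℝ (ph n)) y‖ ≤ M :=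
  fd_bound ph_compact1 ph_cont2

theorem ph_bound (n : ℕ) : ∃ M : ℝ, 1 ≤ M ∧ (∀ y : E n, ‖fderiv ℝ (ph n) y‖ ≤ M) ∧
    ∀ y : E n, ‖fderiv ℝ (fderiv ℝ (ph n)) y‖ ≤ M := by
  obtain ⟨M1, hM1⟩ := ph_bound1 n
  obtain ⟨M2, hM2⟩ := ph_bound2 n
  exact ⟨max 1 (max M1 M2), le_max_left _ _,
    fun y => (hM1 y).trans ((le_max_left _ _).trans (le_max_right _ _)),
    fun y => (hM2 y).trans ((le_max_right _ _).trans (le_max_right _ _))⟩

/-- the scaled test function -/
noncomputable def ps (n : ℕ) (z : E n) (s : ℝ) (y : E n) : ℝ := ph n (s⁻¹ • (y - z))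

theorem ps_cont (z : E n) (s : ℝ) : ContDiff ℝ ∞ (ps n z s) := by
  unfold ps
  exact ph_cont.comp ((contDiff_id.sub contDiff_const).const_smul s⁻¹)

theorem ps_fderiv (z : E n) (s : ℝ) :
    fderiv ℝ (ps n z s) = fun y => s⁻¹ • fderiv ℝ (ph n) (s⁻¹ • (y - z)) := by
  funext y
  have h1 : HasFDerivAt (fun y : E n => s⁻¹ • (y - z)) (s⁻¹ • ContinuousLinearMap.id ℝ (E n)) y :=
    ((hasFDerivAt_id y).sub_const z).const_smul s⁻¹
  have h2 : HasFDerivAt (ph n) (fderiv ℝ (ph n) (s⁻¹ • (y - z))) (s⁻¹ • (y - z)) :=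
    (ph_cont.differentiable (by simp) _).hasFDerivAt
  have h3 := h2.comp y h1
  refine HasFDerivAt.fderiv (h3.congr_fderiv ?_)
  refine ContinuousLinearMap.ext fun v => ?_
  simp

theorem ps_fderiv2 (z : E n) (s : ℝ) (y : E n) :
    fderiv ℝ (fderiv ℝ (ps n z s)) y = (s⁻¹ ^ 2) • fderiv ℝ (fderiv ℝ (ph n)) (s⁻¹ • (y - z)) := by
  rw [ps_fderiv]
  have h1 : HasFDerivAt (fun y : E n => s⁻¹ • (y - z)) (s⁻¹ • ContinuousLinearMap.id ℝ (E n)) y :=
    ((hasFDerivAt_id y).sub_const z).const_smul s⁻¹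
  have h0 : ContDiff ℝ ∞ (fderiv ℝ (ph n)) := ph_cont.fderiv_right (by simp)
  have h2 : HasFDerivAt (fderiv ℝ (ph n)) (fderiv ℝ (fderiv ℝ (ph n)) (s⁻¹ • (y - z)))
      (s⁻¹ • (y - z)) := (h0.differentiable (by simp) _).hasFDerivAt
  have h3 := (h2.comp y h1).const_smul s⁻¹
  refine HasFDerivAt.fderiv (h3.congr_fderiv ?_)
  refine ContinuousLinearMap.ext fun v => ContinuousLinearMap.ext fun w => ?_
  simp
  ring

theorem lap_ps (z : E n) (s : ℝ) (y : E n) :
    lapE (ps n z s) y = s⁻¹ ^ 2 * lapE (ph n) (s⁻¹ • (y - z)) := by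
  unfold lapE
  rw [ps_fderiv2, Finset.mul_sum]
  rfl

theorem ps_tsupport (z : E n) {s : ℝ} (hs : 0 < s) :
    tsupport (ps n z s) ⊆ closedBall z (4 * s) := by
  refine closure_minimal ?_ isClosed_closedBall
  intro y hy
  rw [mem_closedBall]
  by_contra h
  push Not at h
  refine hy (ph_zero ?_)
  rw [norm_smul, norm_inv, Real.norm_of_nonneg hs.le, ← dist_eq_norm, inv_mul_eq_div,
    le_div_iff₀ hs]
  exact h.le

/-- The hypothesis on the map `u : X → ℝⁿ`: the integrals of `(Δ φ) ∘ u` are small for the radial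
test functions `φ = ps n z s`. (`lam` is `C (|G - 1| + r |Δ u|) m` for an almost splitting map
`u`.) -/
structure LapRad {X : Type u} [MeasurableSpace X] (m lam : Measure X) {n : ℕ} (u : X → E n)
    (B : Set X) (V : Set (E n)) : Prop where
  bd : ∀ (z : E n) (s : ℝ), 0 < s → closedBall z (4 * s) ⊆ V →
    |∫ x in B, lapE (ps n z s) (u x) ∂m| ≤
      s⁻¹ ^ 2 * (lam (B ∩ u ⁻¹' closedBall z (4 * s))).toReal

/-- The lower bound for the Laplacian. -/
theorem lap_ps_nonneg (z : E n) {s : ℝ} (hs : 0 < s) {y : E n} (h : s ≤ dist y z) :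
    0 ≤ lapE (ps n z s) y := by
  rw [lap_ps, lap_ph]
  have h1 : 1 ≤ ‖s⁻¹ • (y - z)‖ ^ 2 := by
    rw [norm_smul, norm_inv, Real.norm_of_nonneg hs.le, ← dist_eq_norm, inv_mul_eq_div]
    have : 1 ≤ dist y z / s := (one_le_div₀ hs).2 h
    nlinarith
  have := GG_deriv_nonneg (n := n) h1
  positivity

theorem lap_ps_pos (z : E n) {s : ℝ} (hs : 0 < s) {y : E n} (h : 2 * s ≤ dist y z)
    (h' : dist y z ≤ 3 * s) : s⁻¹ ^ 2 * (4 * ((3 : ℝ) ^ n)⁻¹) ≤ lapE (ps n z s) y := by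
  rw [lap_ps, lap_ph]
  have e1 : ‖s⁻¹ • (y - z)‖ = dist y z / s := by
    rw [norm_smul, norm_inv, Real.norm_of_nonneg hs.le, ← dist_eq_norm, inv_mul_eq_div]
  have h1 : 4 ≤ ‖s⁻¹ • (y - z)‖ ^ 2 := by
    rw [e1]
    have : 2 ≤ dist y z / s := (le_div_iff₀ hs).2 h
    nlinarith
  have h2 : ‖s⁻¹ • (y - z)‖ ^ 2 ≤ 9 := by
    rw [e1]
    have : dist y z / s ≤ 3 := (div_le_iff₀ hs).2 h'
    have : 0 ≤ dist y z / s := by positivity
    nlinarith
  have := GG_deriv_pos (n := n) h1 h2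
  gcongr

/-- One hole. -/
theorem one_hole {X : Type u} [MetricSpace X] [MeasurableSpace X] [BorelSpace X]
    {m lam : Measure X} {u : X → E n} {B : Set X} {V : Set (E n)}
    (hB : IsClosed B) (hmB : m B ≠ ⊤) (hu : ContinuousOn u B)
    (hlip : ∀ x ∈ B, ∀ y ∈ B, dist (u x) (u y) ≤ 2 * dist x y)
    (hL : LapRad m lam u B V) {z : E n} {s v0 : ℝ} (hs : 0 < s) (hV : closedBall z (4 * s) ⊆ V)
    (hhole : ∀ x ∈ B, s ≤ dist (u x) z) {x' : X} (hx' : x' ∈ B) (hd : dist (u x') z = 5 / 2 * s)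
    (hball : ball x' (s / 4) ⊆ B) (hv : ENNReal.ofReal (v0 * (s / 4) ^ n) ≤ m (ball x' (s / 4))) :
    4 * ((3 : ℝ) ^ n)⁻¹ * (v0 * (s / 4) ^ n) ≤
      (lam (B ∩ u ⁻¹' closedBall z (4 * s))).toReal := by
  obtain ⟨M, hM, hM1, hM2⟩ := ph_bound n
  have hmeas : MeasurableSet B := hB.measurableSet
  have hcont : Continuous (lapE (ps n z s)) := by
    have h1 : ContDiff ℝ ∞ (fderiv ℝ (ps n z s)) := (ps_cont z s).fderiv_right (by simp)
    have h2 : Continuous (fderiv ℝ (fderiv ℝ (ps n z s))) :=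
      (h1.fderiv_right (m := ∞) (by simp)).continuous
    unfold lapE
    refine continuous_finset_sum _ fun i _ => ?_
    exact (h2.clm_apply continuous_const).clm_apply continuous_const
  have hc' : ContinuousOn (fun x => lapE (ps n z s) (u x)) B := hcont.comp_continuousOn hu
  have hb : ∃ K : ℝ, ∀ y, |lapE (ps n z s) y| ≤ K := by
    refine ⟨∑ i : Fin n, s⁻¹ ^ 2 * M, fun y => ?_⟩
    unfold lapE
    refine (Finset.abs_sum_le_sum_abs _ _).trans (Finset.sum_le_sum fun i _ => ?_)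
    rw [ps_fderiv2]
    have h1 : ‖EuclideanSpace.single i (1 : ℝ)‖ = 1 := by simp
    have h2 := ContinuousLinearMap.le_opNorm₂ (fderiv ℝ (fderiv ℝ (ph n)) (s⁻¹ • (y - z)))
      (EuclideanSpace.single i 1) (EuclideanSpace.single i 1)
    rw [h1, mul_one, mul_one] at h2
    calc |((s⁻¹ ^ 2 • fderiv ℝ (fderiv ℝ (ph n)) (s⁻¹ • (y - z))) (EuclideanSpace.single i 1))
          (EuclideanSpace.single i 1)| = s⁻¹ ^ 2 * ‖(fderiv ℝ (fderiv ℝ (ph n)) (s⁻¹ • (y - z))
            (EuclideanSpace.single i 1)) (EuclideanSpace.single i 1)‖ := by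
          simp [abs_mul]
      _ ≤ s⁻¹ ^ 2 * M := by
          gcongr
          exact h2.trans (hM2 _)
  obtain ⟨K, hK⟩ := hb
  have hint : IntegrableOn (fun x => lapE (ps n z s) (u x)) B m := by
    haveI : IsFiniteMeasure (m.restrict B) := ⟨by rw [Measure.restrict_apply_univ]; exact hmB.lt_top⟩
    refine Integrable.of_bound (hc'.aestronglyMeasurable hmeas) K ?_
    exact Eventually.of_forall fun x => by rw [Real.norm_eq_abs]; exact hK _
  -- lower bound
  have hlow : s⁻¹ ^ 2 * (4 * ((3 : ℝ) ^ n)⁻¹) * (v0 * (s / 4) ^ n) ≤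
      ∫ x in B, lapE (ps n z s) (u x) ∂m := by
    have hmb : m (ball x' (s / 4)) ≠ ⊤ := ne_top_of_le_ne_top hmB (measure_mono hball)
    calc s⁻¹ ^ 2 * (4 * ((3 : ℝ) ^ n)⁻¹) * (v0 * (s / 4) ^ n)
        ≤ s⁻¹ ^ 2 * (4 * ((3 : ℝ) ^ n)⁻¹) * (m (ball x' (s / 4))).toReal := by
          gcongr
          exact (ENNReal.ofReal_le_iff_le_toReal hmb).1 hv
      _ = ∫ x in ball x' (s / 4), s⁻¹ ^ 2 * (4 * ((3 : ℝ) ^ n)⁻¹) ∂m := by
          rw [setIntegral_const, smul_eq_mul, mul_comm]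
          rfl
      _ ≤ ∫ x in ball x' (s / 4), lapE (ps n z s) (u x) ∂m := by
          refine setIntegral_mono_on ?_ (hint.mono_set hball) measurableSet_ball fun x hx => ?_
          · exact integrableOn_const hmb
          · have h1 := hlip x (hball hx) x' hx'
            have h2 : dist x x' < s / 4 := hx
            have h3 := dist_triangle (u x) (u x') z
            have h4 := dist_triangle_left (u x') z (u x)
            exact lap_ps_pos z hs (by linarith) (by linarith)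
      _ ≤ ∫ x in B, lapE (ps n z s) (u x) ∂m := by
          refine setIntegral_mono_set hint ?_ hball.eventuallyLE
          refine (ae_restrict_iff' hmeas).2 (Eventually.of_forall fun x hx => ?_)
          exact lap_ps_nonneg z hs (hhole x hx)
  have h1 := hlow.trans ((le_abs_self _).trans (hL.bd z s hs hV))
  rw [mul_assoc] at h1
  exact le_of_mul_le_mul_left h1 (by positivity)

end Vale.Agent.P242.H607
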