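import Vale.Agent.P242.H607.Holes
import Vale.Agent.P242.H607.Iso

/-! P242, helper607 (package VOL-SURJ): lower bound for the volume of a ball which admits an
almost splitting map. -/

set_option linter.all false

open Set Metric Filter Topology MeasureTheory
open scoped ContDiff InnerProductSpace

namespace Vale.Agent.P242.H607

universe u

variable {n : ℕ}

/-- **Volume lower bound.** `B` is compact and connected, `u : B → ℝⁿ` is `2`-Lipschitz and
`(1 + e)`-Lipschitz on `closedBall p r`; the points of `B` with `dist (u x) (u p) ≤ r'` have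
distance at most `r` from `p`; the image of `B` is `σ`-dense in `closedBall (u p) r'` and leaves
every ball of radius `4 σ` centred there; balls of radius at most `σ` around points of `B` with
image in `V` are contained in `B` and have volume at least `v0 t ^ n`; the integrals of
`(Δ φ) ∘ u` are controlled by `lam`. Then the volume of `closedBall p r` is almost at least the
volume of the Euclidean ball of radius `r'`. -/
theorem vol_lower (hn : 0 < n) : ∃ C : ℝ, 0 < C ∧
    ∀ {X : Type u} [MetricSpace X] [MeasurableSpace X] [BorelSpace X]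
    (m lam : Measure X) (u : X → E n) (B : Set X) (V : Set (E n)) (p : X) (r r' σ v0 e : ℝ)
    (_ : IsCompact B) (_ : IsPreconnected B) (_ : m B ≠ ⊤) (_ : lam B ≠ ⊤)
    (_ : ∀ x ∈ B, ∀ y ∈ B, dist (u x) (u y) ≤ 2 * dist x y)
    (_ : LapRad m lam u B V) (_ : 0 < σ) (_ : 0 < v0) (_ : 0 ≤ r') (_ : 0 ≤ e)
    (_ : ∀ z, dist z (u p) ≤ r' + 4 * σ → z ∈ V)
    (_ : ∀ z, dist z (u p) ≤ r' → ∃ x ∈ B, dist (u x) z < σ)
    (_ : ∀ z, dist z (u p) ≤ r' → ∃ x ∈ B, 4 * σ ≤ dist (u x) z)
    (_ : ∀ x ∈ B, u x ∈ V → ∀ t, 0 < t → t ≤ σ →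
      ball x t ⊆ B ∧ ENNReal.ofReal (v0 * t ^ n) ≤ m (ball x t))
    (_ : ∀ x ∈ B, dist (u x) (u p) ≤ r' → dist x p ≤ r)
    (_ : ∀ x ∈ B, ∀ y ∈ B, dist x p ≤ r → dist y p ≤ r → dist (u x) (u y) ≤ (1 + e) * dist x y),
    ENNReal.ofReal ((2 * r') ^ n) ≤ ENNReal.ofReal (C / v0) * lam B +
      ENNReal.ofReal ((1 + e) ^ n) * μH[(n : ℝ)] (closedBall p r) := by
  obtain ⟨C0, hC0, hmain⟩ := holes.{u} n
  have hhaar := haar_hausdorff n
  set c : ENNReal := ((Measure.addHaarScalarFactor (μH[(n : ℝ)] : Measure (E n)) volume : NNReal) :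
    ENNReal) with hc
  have heq : (μH[(n : ℝ)] : Measure (E n)) = c • volume := by
    have h := Measure.isAddLeftInvariant_eq_smul (μH[(n : ℝ)] : Measure (E n)) volume
    rw [hc]
    exact h
  have hct : c ≠ ⊤ := ENNReal.coe_ne_top
  have hc0 : c ≠ 0 := by
    intro h0
    have h1 := hausdorff_closedBall hn (zero_le_one) (0 : E n)
    rw [heq, h0, zero_smul] at h1
    simp only [Measure.coe_zero, Pi.zero_apply] at h1
    have h2 : (0 : ℝ) < (2 * 1) ^ n := by positivity
    exact (ENNReal.ofReal_pos.2 h2).ne h1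
  refine ⟨c.toReal * C0, mul_pos (ENNReal.toReal_pos hc0 hct) hC0, ?_⟩
  intro X _ _ _ m lam u B V p r r' σ v0 e hB hBc hmB hlB hlip hL hσ hv0 hr' he hV hnear hfar hball
    hiso hlip'
  have hu : ContinuousOn u B := by
    have : LipschitzOnWith 2 u B := LipschitzOnWith.of_dist_le_mul fun x hx y hy => hlip x hx y hy
    exact this.continuousOn
  have hcl : closure (u '' B) = u '' B := (hB.image_of_continuousOn hu).isClosed.closure_eq
  have h1 := hmain m lam u B V (closedBall (u p) r') σ v0 hB.isClosed hBc hmB hlB hu hlip hL hσ hv0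
    (fun z hz w hw => hV w ((dist_triangle w z (u p)).trans (by
      have h1 : dist w z ≤ 4 * σ := hw
      have h2 : dist z (u p) ≤ r' := hz
      linarith)))
    (fun z hz => hnear z hz) (fun z hz => hfar z hz) hball
  rw [hcl] at h1
  have h2 : μH[(n : ℝ)] (closedBall (u p) r' \ u '' B) ≤
      ENNReal.ofReal (c.toReal * C0 / v0) * lam B := by
    rw [heq, Measure.smul_apply, smul_eq_mul]
    calc c * volume (closedBall (u p) r' \ u '' B) ≤ c * (ENNReal.ofReal (C0 / v0) * lam B) := by
          gcongr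
      _ = ENNReal.ofReal (c.toReal * C0 / v0) * lam B := by
          rw [← mul_assoc, mul_div_assoc, ENNReal.ofReal_mul ENNReal.toReal_nonneg,
            ENNReal.ofReal_toReal hct]
  have h3 : closedBall (u p) r' ⊆ (closedBall (u p) r' \ u '' B) ∪
      u '' (B ∩ closedBall p r) := by
    intro z hz
    by_cases hzB : z ∈ u '' B
    · right
      obtain ⟨x, hx, rfl⟩ := hzB
      exact ⟨x, ⟨hx, hiso x hx hz⟩, rfl⟩
    · exact Or.inl ⟨hz, hzB⟩
  have h4 : μH[(n : ℝ)] (u '' (B ∩ closedBall p r)) ≤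
      ENNReal.ofReal ((1 + e) ^ n) * μH[(n : ℝ)] (closedBall p r) := by
    have hK : LipschitzOnWith (Real.toNNReal (1 + e)) u (B ∩ closedBall p r) := by
      refine LipschitzOnWith.of_dist_le_mul fun x hx y hy => ?_
      rw [Real.coe_toNNReal _ (by linarith)]
      exact hlip' x hx.1 y hy.1 hx.2 hy.2
    refine (hK.hausdorffMeasure_image_le (Nat.cast_nonneg n)).trans ?_
    rw [ENNReal.rpow_natCast, ENNReal.ofReal_pow (by linarith)]
    gcongr
    · exact le_rfl
    · exact inter_subset_right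
  calc ENNReal.ofReal ((2 * r') ^ n) = μH[(n : ℝ)] (closedBall (u p) r') :=
        (hausdorff_closedBall hn hr' _).symm
    _ ≤ μH[(n : ℝ)] (closedBall (u p) r' \ u '' B) + μH[(n : ℝ)] (u '' (B ∩ closedBall p r)) :=
        (measure_mono h3).trans (measure_union_le _ _)
    _ ≤ _ := add_le_add h2 h4

end Vale.Agent.P242.H607
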